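import Vale.Agent.P315.H54.Anti

/-! Antidiagonal geometry of edit distance windows (P315, row D-ANTI).

A point at time `t` with coordinate `u` (`u ≤ t`) is the grid point `(u, t - u)`. No clipping: `X`, `Y`
are arbitrary infinite sequences; `lev_pad` relates the edit distance of two lists to the padded
sequences. -/

set_option autoImplicit false

namespace Vale.Agent.P315.H54

open Vale.Agent.P315

theorem lev_comm (x y : List ℕ) : lev x y = lev y x :=
  le_antisymm (script_lev y x).symm.lev_le (script_lev x y).symm.lev_le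

section Seg
variable (X Y : ℕ → ℕ)

/-- Two windows of the same sequence. -/
theorem lev_seg_left (a a2 a' : ℕ) (h : a ≤ a2) :
    lev (seg X a (a' - a)) (seg X a2 (a' - a2)) ≤ a2 - a := by
  rcases Nat.le_total a2 a' with h1 | h1
  · rw [show a' - a = (a2 - a) + (a' - a2) by omega, seg_add, show a + (a2 - a) = a2 by omega]
    have := lev_append_le (seg X a (a2 - a)) (seg X a2 (a' - a2)) [] (seg X a2 (a' - a2))
    rw [lev_self, lev_nil_right, length_seg] at this
    simpa using this
  · rw [show a' - a2 = 0 by omega, seg_zero, lev_nil_right, length_seg]; omega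

theorem lev_seg_right (a a' a2' : ℕ) (h : a' ≤ a2') :
    lev (seg X a (a' - a)) (seg X a (a2' - a)) ≤ a2' - a' := by
  rcases Nat.le_total a a' with h1 | h1
  · rw [show a2' - a = (a' - a) + (a2' - a') by omega, seg_add, show a + (a' - a) = a' by omega]
    have := lev_append_le (seg X a (a' - a)) [] (seg X a (a' - a)) (seg X a' (a2' - a'))
    rw [lev_self, lev_nil_left, length_seg] at this
    simpa using this
  · rw [show a' - a = 0 by omega, seg_zero, lev_nil_left, length_seg]; omega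

theorem lev_seg_seg (a a' a2 a2' : ℕ) :
    lev (seg X a (a' - a)) (seg X a2 (a2' - a2)) ≤
      ((a - a2) + (a2 - a)) + ((a' - a2') + (a2' - a')) := by
  have h1 : lev (seg X a (a' - a)) (seg X a2 (a' - a2)) ≤ (a - a2) + (a2 - a) := by
    rcases Nat.le_total a a2 with h | h
    · exact (lev_seg_left X a a2 a' h).trans (by omega)
    · rw [lev_comm]; exact (lev_seg_left X a2 a a' h).trans (by omega)
  have h2 : lev (seg X a2 (a' - a2)) (seg X a2 (a2' - a2)) ≤ (a' - a2') + (a2' - a') := by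
    rcases Nat.le_total a' a2' with h | h
    · exact (lev_seg_right X a2 a' a2' h).trans (by omega)
    · rw [lev_comm]; exact (lev_seg_right X a2 a2' a' h).trans (by omega)
  exact (lev_triangle _ _ _).trans (Nat.add_le_add h1 h2)

/-- Edit distance of `X[a, a')` and `Y[b, b')` (empty windows if `a' ≤ a`, `b' ≤ b`). -/
def Ed (a b a' b' : ℕ) : ℕ := dist X Y a (a' - a) b (b' - b)

theorem Ed_self (a b : ℕ) : Ed X Y a b a b = 0 := by
  simp [Ed, dist, seg_zero, lev_nil_left]

theorem Ed_le (a b a' b' : ℕ) : Ed X Y a b a' b' ≤ (a' - a) + (b' - b) := dist_le X Y _ _ _ _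

theorem Ed_disp (a b a' b' : ℕ) : (b' - b) ≤ (a' - a) + Ed X Y a b a' b' ∧
    (a' - a) ≤ (b' - b) + Ed X Y a b a' b' := le_dist X Y _ _ _ _

theorem Ed_zero_left (a b b' : ℕ) : Ed X Y a b a b' = b' - b := by
  rw [Ed, Nat.sub_self, dist_zero_left]

theorem Ed_zero_right (a b a' : ℕ) : Ed X Y a b a' b = a' - a := by
  rw [Ed, Nat.sub_self, dist_zero_right]

theorem Ed_add {a b a' b' a'' b'' : ℕ} (h1 : a ≤ a') (h2 : a' ≤ a'') (h3 : b ≤ b')
    (h4 : b' ≤ b'') : Ed X Y a b a'' b'' ≤ Ed X Y a b a' b' + Ed X Y a' b' a'' b'' := by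
  have := dist_add X Y a (a' - a) b (b' - b) (a'' - a') (b'' - b')
  rwa [show a' - a + (a'' - a') = a'' - a by omega, show b' - b + (b'' - b') = b'' - b by omega,
    show a + (a' - a) = a' by omega, show b + (b' - b) = b' by omega] at this

/-- Moving the four ends of a window. -/
theorem Ed_lip (a b a' b' a2 b2 a2' b2' : ℕ) : Ed X Y a b a' b' ≤ Ed X Y a2 b2 a2' b2' +
    (((a - a2) + (a2 - a)) + ((a' - a2') + (a2' - a')) + ((b - b2) + (b2 - b)) +
      ((b' - b2') + (b2' - b'))) := by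
  have h1 := lev_seg_seg X a a' a2 a2'
  have h2 := lev_seg_seg Y b2 b2' b b'
  have h3 := lev_triangle (seg X a (a' - a)) (seg X a2 (a2' - a2)) (seg Y b (b' - b))
  have h4 := lev_triangle (seg X a2 (a2' - a2)) (seg Y b2 (b2' - b2)) (seg Y b (b' - b))
  simp only [Ed, dist]
  omega

theorem drop_seg (p l i : ℕ) : (seg X p l).drop i = seg X (p + i) (l - i) := by
  apply List.ext_getElem
  · simp [length_seg]
  · intro n h1 h2
    simp only [List.length_drop, length_seg] at h1
    simp [seg, Nat.add_assoc]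

theorem take_seg (p l k : ℕ) (h : k ≤ l) : (seg X p l).take k = seg X p k := by
  apply List.ext_getElem
  · simp [length_seg, h]
  · intro n h1 h2
    simp [seg]

theorem factor_seg (p l i j : ℕ) (h : j ≤ l) :
    factor (seg X p l) i j = seg X (p + i) (j - i) := by
  unfold factor
  rw [drop_seg, take_seg _ _ _ _ (by omega)]

/-- The real optimal path of a window. -/
structure RealPath (a b a' b' : ℕ) (p q w : ℕ → ℕ) : Prop where
  p0 : p 0 = a
  q0 : q 0 = b
  w0 : w 0 = 0
  mp : Monotone p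
  mq : Monotone q
  mw : Monotone w
  lp : ∀ t, p (t + 1) ≤ p t + 1
  lq : ∀ t, q (t + 1) ≤ q t + 1
  time : ∀ t, t ≤ (a' - a) + (b' - b) → p t + q t = a + b + t ∨ p t + q t = a + b + t + 1
  pe : ∀ t, (a' - a) + (b' - b) ≤ t → p t = a'
  qe : ∀ t, (a' - a) + (b' - b) ≤ t → q t = b'
  we : ∀ t, (a' - a) + (b' - b) ≤ t → w t = Ed X Y a b a' b'
  cost : ∀ t t', t ≤ t' → w t + Ed X Y (p t) (q t) (p t') (q t') = w t'

theorem exists_realPath {a b a' b' : ℕ} (ha : a ≤ a') (hb : b ≤ b') :
    ∃ p q w : ℕ → ℕ, RealPath X Y a b a' b' p q w := by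
  obtain ⟨α, β, w, P⟩ := exists_path (seg X a (a' - a)) (seg Y b (b' - b))
  have hl1 : (seg X a (a' - a)).length = a' - a := length_seg _ _ _
  have hl2 : (seg Y b (b' - b)).length = b' - b := length_seg _ _ _
  have hα : ∀ t, α t ≤ a' - a := fun t => by
    have h1 := P.ma (le_max_left t ((a' - a) + (b' - b)))
    rw [P.ae (max t ((a' - a) + (b' - b))) (by rw [hl1, hl2]; exact le_max_right _ _), hl1] at h1
    exact h1
  have hβ : ∀ t, β t ≤ b' - b := fun t => by
    have h1 := P.mb (le_max_left t ((a' - a) + (b' - b)))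
    rw [P.be (max t ((a' - a) + (b' - b))) (by rw [hl1, hl2]; exact le_max_right _ _), hl2] at h1
    exact h1
  refine ⟨fun t => a + α t, fun t => b + β t, w, ?_, ?_, P.w0, ?_, ?_, P.mw, ?_, ?_, ?_, ?_, ?_,
    ?_, ?_⟩
  · simp [P.a0]
  · simp [P.b0]
  · intro s t h; exact Nat.add_le_add_left (P.ma h) a
  · intro s t h; exact Nat.add_le_add_left (P.mb h) b
  · intro t; have := P.la t; omega
  · intro t; have := P.lb t; omega
  · intro t ht
    rcases P.time t (by rw [hl1, hl2]; exact ht) with h | h <;> omega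
  · intro t ht
    rw [P.ae t (by rw [hl1, hl2]; exact ht), hl1]; omega
  · intro t ht
    rw [P.be t (by rw [hl1, hl2]; exact ht), hl2]; omega
  · intro t ht
    rw [P.we t (by rw [hl1, hl2]; exact ht)]; rfl
  · intro t t' h
    have h1 := P.lev_eq h
    rw [factor_seg X a (a' - a) _ _ (hα t'), factor_seg Y b (b' - b) _ _ (hβ t')] at h1
    simp only [Ed, dist]
    rw [show a + α t' - (a + α t) = α t' - α t by omega,
      show b + β t' - (b + β t) = β t' - β t by omega]
    exact h1

end Seg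

/-! ### Time and position -/

section Time
variable (X Y : ℕ → ℕ)

/-- Cost from the point `u` at time `t` to the point `v` at time `t'`. -/
def En (t u t' v : ℕ) : ℕ := Ed X Y u (t - u) v (t' - v)

/-- `v` at time `t'` can be reached from `u` at time `t` by a monotone path. -/
structure Valid (t u t' v : ℕ) : Prop where
  hu : u ≤ t
  hv : v ≤ t'
  hx : u ≤ v
  hy : t - u ≤ t' - v

theorem Valid.le {t u t' v : ℕ} (h : Valid t u t' v) : t ≤ t' := by
  have := h.hu; have := h.hv; have := h.hx; have := h.hy; omega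

theorem valid_iff {t u t' v : ℕ} (htt : t ≤ t') (hu : u ≤ t) :
    Valid t u t' v ↔ u ≤ v ∧ v ≤ u + (t' - t) := by
  constructor
  · intro h
    have := h.hu; have := h.hv; have := h.hx; have := h.hy; omega
  · intro h
    exact ⟨hu, by omega, h.1, by omega⟩

theorem Valid.refl {t u : ℕ} (h : u ≤ t) : Valid t u t u := ⟨h, h, le_rfl, le_rfl⟩

theorem Valid.trans {t u t' v t'' z : ℕ} (h : Valid t u t' v) (h' : Valid t' v t'' z) :
    Valid t u t'' z := ⟨h.hu, h'.hv, h.hx.trans h'.hx, h.hy.trans h'.hy⟩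

theorem En_le {t u t' v : ℕ} (h : Valid t u t' v) : En X Y t u t' v ≤ t' - t := by
  have := Ed_le X Y u (t - u) v (t' - v)
  have := h.hu; have := h.hv; have := h.hx; have := h.hy
  unfold En; omega

/-- The displacement is bounded by the cost. -/
theorem En_disp {t u t' v : ℕ} (h : Valid t u t' v) :
    t' - t ≤ 2 * (v - u) + En X Y t u t' v ∧ 2 * (v - u) ≤ (t' - t) + En X Y t u t' v := by
  have h1 := Ed_disp X Y u (t - u) v (t' - v)
  have := h.hu; have := h.hv; have := h.hx; have := h.hy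
  unfold En; omega

theorem En_add {t u t' v t'' z : ℕ} (h : Valid t u t' v) (h' : Valid t' v t'' z) :
    En X Y t u t'' z ≤ En X Y t u t' v + En X Y t' v t'' z :=
  Ed_add X Y h.hx h'.hx h.hy h'.hy

/-- Moving both positions costs at most twice the displacements. -/
theorem En_lip (t u t' v u2 v2 : ℕ) : En X Y t u t' v ≤ En X Y t u2 t' v2 +
    2 * ((u - u2) + (u2 - u)) + 2 * ((v - v2) + (v2 - v)) := by
  have := Ed_lip X Y u (t - u) v (t' - v) u2 (t - u2) v2 (t' - v2)
  unfold En; omega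

theorem En_self (t u : ℕ) : En X Y t u t u = 0 := Ed_self X Y _ _

/-- Vertical boundary of the cone: only symbols of `Y`. -/
theorem En_left {t0 u0 t : ℕ} (h : u0 ≤ t0) (ht : t0 ≤ t) : En X Y t0 u0 t u0 = t - t0 := by
  rw [En, Ed_zero_left]; omega

/-- Horizontal boundary of the cone: only symbols of `X`. -/
theorem En_right {t0 u0 t : ℕ} (h : u0 ≤ t0) (ht : t0 ≤ t) :
    En X Y t0 u0 t (u0 + (t - t0)) = t - t0 := by
  rw [En, show t - (u0 + (t - t0)) = t0 - u0 by omega, Ed_zero_right]; omega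

/-- Nearest point of the forward cone of `(t0, u0)`. -/
def cl (t0 u0 t u : ℕ) : ℕ := max u0 (min u (u0 + (t - t0)))

/-- The potential of the point `u` at time `t` seen from `(t0, u0)`. -/
def Phi (t0 u0 t u : ℕ) : ℕ :=
  En X Y t0 u0 t (cl t0 u0 t u) + 2 * ((u - cl t0 u0 t u) + (cl t0 u0 t u - u))

theorem cl_of_mem {t0 u0 t u : ℕ} (h1 : u0 ≤ u) (h2 : u ≤ u0 + (t - t0)) :
    cl t0 u0 t u = u := by unfold cl; omega

theorem cl_of_le {t0 u0 t u : ℕ} (h1 : u ≤ u0) : cl t0 u0 t u = u0 := by unfold cl; omega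

theorem cl_of_ge {t0 u0 t u : ℕ} (h1 : u0 + (t - t0) ≤ u) : cl t0 u0 t u = u0 + (t - t0) := by
  unfold cl; omega

theorem Phi_eq {t0 u0 t u : ℕ} (h : Valid t0 u0 t u) :
    Phi X Y t0 u0 t u = En X Y t0 u0 t u := by
  have h1 := (valid_iff h.le h.hu).1 h
  unfold Phi
  rw [cl_of_mem h1.1 h1.2]; omega

theorem Phi_start {t0 u0 : ℕ} (h : u0 ≤ t0) : Phi X Y t0 u0 t0 u0 = 0 := by
  rw [Phi_eq X Y (Valid.refl h), En_self]

/-- The potential is 2-Lipschitz. -/
theorem Phi_shift (t0 u0 t u u' : ℕ) :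
    Phi X Y t0 u0 t u' ≤ Phi X Y t0 u0 t u + 2 * ((u - u') + (u' - u)) := by
  have h := En_lip X Y t0 u0 t (cl t0 u0 t u') u0 (cl t0 u0 t u)
  have hc : ((cl t0 u0 t u' - cl t0 u0 t u) + (cl t0 u0 t u - cl t0 u0 t u')) +
      ((u' - cl t0 u0 t u') + (cl t0 u0 t u' - u')) ≤
      ((u - cl t0 u0 t u) + (cl t0 u0 t u - u)) + ((u - u') + (u' - u)) := by
    unfold cl; omega
  unfold Phi
  omega

/-- A monotone step. -/
theorem Phi_step {t0 u0 t u t' v : ℕ} (h0 : u0 ≤ t0) (ht : t0 ≤ t) (h : Valid t u t' v) :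
    Phi X Y t0 u0 t' v ≤ Phi X Y t0 u0 t u + En X Y t u t' v := by
  have htt := h.le
  have h1 := (valid_iff htt h.hu).1 h
  have hut := h.hu
  have hd := En_disp X Y h
  rcases Nat.lt_or_ge u u0 with hu | hu
  · -- left of the cone
    have e1 : Phi X Y t0 u0 t u = (t - t0) + 2 * (u0 - u) := by
      unfold Phi; rw [cl_of_le hu.le, En_left X Y h0 ht]; omega
    rcases Nat.le_total v u0 with hv | hv
    · have e2 : Phi X Y t0 u0 t' v = (t' - t0) + 2 * (u0 - v) := by
        unfold Phi; rw [cl_of_le hv, En_left X Y h0 (ht.trans htt)]; omega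
      rw [e1, e2]; omega
    · have hv' : Valid t u0 t' v := (valid_iff htt (h0.trans ht)).2 ⟨hv, by omega⟩
      have hb : Valid t0 u0 t u0 := (valid_iff ht h0).2 ⟨le_rfl, by omega⟩
      rw [Phi_eq X Y (hb.trans hv'), e1]
      have h2 := En_add X Y hb hv'
      have h3 := En_left X Y h0 ht
      have h4 := En_lip X Y t u0 t' v u v
      omega
  · rcases Nat.lt_or_ge (u0 + (t - t0)) u with hu' | hu'
    · -- right of the cone
      have e1 : Phi X Y t0 u0 t u = (t - t0) + 2 * (u - (u0 + (t - t0))) := by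
        unfold Phi; rw [cl_of_ge hu'.le, En_right X Y h0 ht]; omega
      rcases Nat.le_total (u0 + (t' - t0)) v with hv | hv
      · have e2 : Phi X Y t0 u0 t' v = (t' - t0) + 2 * (v - (u0 + (t' - t0))) := by
          unfold Phi; rw [cl_of_ge hv, En_right X Y h0 (ht.trans htt)]; omega
        rw [e1, e2]; omega
      · have hv' : Valid t (u0 + (t - t0)) t' v := (valid_iff htt (by omega)).2 ⟨by omega, by omega⟩
        have hb : Valid t0 u0 t (u0 + (t - t0)) := (valid_iff ht h0).2 ⟨by omega, by omega⟩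
        rw [Phi_eq X Y (hb.trans hv'), e1]
        have h2 := En_add X Y hb hv'
        have h3 := En_right X Y h0 ht
        have h4 := En_lip X Y t (u0 + (t - t0)) t' v u v
        omega
    · -- inside
      have hb : Valid t0 u0 t u := (valid_iff ht h0).2 ⟨hu, hu'⟩
      rw [Phi_eq X Y hb, Phi_eq X Y (hb.trans h)]
      exact En_add X Y hb h

/-! ### The leaf cost for all pairs -/

/-- The Lipschitz closure of `En` on valid pairs. -/
noncomputable def Dc (t t' u v : ℕ) : ℕ :=
  sInf {c | ∃ u' v', Valid t u' t' v' ∧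
    c = 2 * ((u - u') + (u' - u)) + En X Y t u' t' v' + 2 * ((v - v') + (v' - v))}

theorem Dc_exists {t t' : ℕ} (htt : t ≤ t') (u v : ℕ) : ∃ u' v', Valid t u' t' v' ∧
    Dc X Y t t' u v =
      2 * ((u - u') + (u' - u)) + En X Y t u' t' v' + 2 * ((v - v') + (v' - v)) := by
  have hne : {c | ∃ u' v', Valid t u' t' v' ∧
    c = 2 * ((u - u') + (u' - u)) + En X Y t u' t' v' + 2 * ((v - v') + (v' - v))}.Nonempty :=
    ⟨_, 0, 0, ⟨Nat.zero_le _, Nat.zero_le _, le_rfl, by omega⟩, rfl⟩
  exact Nat.sInf_mem hne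

theorem Dc_le {t t' u' v' : ℕ} (h : Valid t u' t' v') (u v : ℕ) : Dc X Y t t' u v ≤
    2 * ((u - u') + (u' - u)) + En X Y t u' t' v' + 2 * ((v - v') + (v' - v)) :=
  Nat.sInf_le ⟨u', v', h, rfl⟩

theorem Dc_eq {t t' u v : ℕ} (h : Valid t u t' v) : Dc X Y t t' u v = En X Y t u t' v := by
  apply le_antisymm
  · have := Dc_le X Y h u v; simpa using this
  · obtain ⟨u', v', h', e⟩ := Dc_exists X Y h.le u v
    rw [e]
    have := En_lip X Y t u t' v u' v'
    omega

theorem Dc_lip {t t' : ℕ} (htt : t ≤ t') (u v u2 v2 : ℕ) : Dc X Y t t' u v ≤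
    Dc X Y t t' u2 v2 + 2 * ((u - u2) + (u2 - u)) + 2 * ((v - v2) + (v2 - v)) := by
  obtain ⟨u', v', h', e⟩ := Dc_exists X Y htt u2 v2
  have := Dc_le X Y h' u v
  rw [e]; omega

theorem Phi_Dc {t0 u0 t t' : ℕ} (h0 : u0 ≤ t0) (ht : t0 ≤ t) (htt : t ≤ t') (u v : ℕ) :
    Phi X Y t0 u0 t' v ≤ Phi X Y t0 u0 t u + Dc X Y t t' u v := by
  obtain ⟨u', v', h', e⟩ := Dc_exists X Y htt u v
  have h1 := Phi_shift X Y t0 u0 t u u'
  have h2 := Phi_step X Y h0 ht h'
  have h3 := Phi_shift X Y t0 u0 t' v' v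
  rw [e]; omega

/-- **Certificate.** A walk that alternates shifts and row moves costs at least `En`. The row costs
`c i` may be any upper bounds of `Dc`. -/
theorem certificate {t0 u0 : ℕ} (h0 : u0 ≤ t0) (T : ℕ → ℕ) (hT : Monotone T) (hT0 : T 0 = t0)
    (a b : ℕ → ℕ) (c : ℕ → ℕ) (n : ℕ)
    (hc : ∀ i, i < n → Dc X Y (T i) (T (i + 1)) (a i) (b i) ≤ c i) (v : ℕ)
    (hv : Valid t0 u0 (T n) v) :
    En X Y t0 u0 (T n) v ≤ 2 * ((u0 - a 0) + (a 0 - u0)) +
      ∑ i ∈ Finset.range n, (c i + 2 * ((b i - a (i + 1)) + (a (i + 1) - b i))) +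
      2 * ((a n - v) + (v - a n)) := by
  have key : ∀ i, i ≤ n → Phi X Y t0 u0 (T i) (a i) ≤ 2 * ((u0 - a 0) + (a 0 - u0)) +
      ∑ i ∈ Finset.range i, (c i + 2 * ((b i - a (i + 1)) + (a (i + 1) - b i))) := by
    intro i
    induction i with
    | zero =>
      intro _
      have h1 := Phi_shift X Y t0 u0 t0 u0 (a 0)
      rw [Phi_start X Y h0] at h1
      rw [hT0]; simpa using h1
    | succ i ih =>
      intro hi
      have h1 := ih (by omega)
      have h2 := Phi_Dc X Y h0 (hT0 ▸ hT (Nat.zero_le i))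
        (hT (show i ≤ i + 1 by omega)) (a i) (b i)
      have h3 := Phi_shift X Y t0 u0 (T (i + 1)) (b i) (a (i + 1))
      have h4 := hc i (by omega)
      rw [Finset.sum_range_succ]
      omega
  have h1 := key n le_rfl
  have h2 := Phi_shift X Y t0 u0 (T n) (a n) v
  rw [Phi_eq X Y hv] at h2
  omega

/-! ### The real path seen at exact times -/

theorem RealPath.lip_p {a b a' b' : ℕ} {p q w : ℕ → ℕ} (P : RealPath X Y a b a' b' p q w)
    {s s' : ℕ} (h : s ≤ s') : p s' ≤ p s + (s' - s) := by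
  induction s', h using Nat.le_induction with
  | base => omega
  | succ m hm ih => have := P.lp m; omega

/-- Position of the path at time `t0 + s` and the cost between two exact times. -/
theorem RealPath.point {t0 u0 t1 v1 : ℕ} (hV : Valid t0 u0 t1 v1) {p q w : ℕ → ℕ}
    (P : RealPath X Y u0 (t0 - u0) v1 (t1 - v1) p q w) {s : ℕ} (hs : s ≤ t1 - t0) :
    p s ≤ t0 + s ∧ t0 + s - p s ≤ q s ∧ q s ≤ t0 + s - p s + 1 := by
  have h1 := P.lip_p X Y (Nat.zero_le s)
  have h2 := P.p0
  have := hV.hu; have := hV.hv; have := hV.hx; have := hV.hy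
  rcases P.time s (by omega) with h | h <;> omega

theorem RealPath.valid {t0 u0 t1 v1 : ℕ} (hV : Valid t0 u0 t1 v1) {p q w : ℕ → ℕ}
    (P : RealPath X Y u0 (t0 - u0) v1 (t1 - v1) p q w) {s s' : ℕ} (h : s ≤ s')
    (hs : s' ≤ t1 - t0) : Valid (t0 + s) (p s) (t0 + s') (p s') := by
  have h1 := P.point X Y hV (h.trans hs)
  exact (valid_iff (by omega) h1.1).2 ⟨P.mp h, by have := P.lip_p X Y h; omega⟩

theorem RealPath.en_le {t0 u0 t1 v1 : ℕ} (hV : Valid t0 u0 t1 v1) {p q w : ℕ → ℕ}
    (P : RealPath X Y u0 (t0 - u0) v1 (t1 - v1) p q w) {s s' : ℕ} (h : s ≤ s')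
    (hs : s' ≤ t1 - t0) : w s + En X Y (t0 + s) (p s) (t0 + s') (p s') ≤ w s' + 2 ∧
      w s' ≤ w s + En X Y (t0 + s) (p s) (t0 + s') (p s') + 2 := by
  have h1 := P.point X Y hV (h.trans hs)
  have h2 := P.point X Y hV hs
  have h3 := P.cost s s' h
  have h4 := Ed_lip X Y (p s) (t0 + s - p s) (p s') (t0 + s' - p s') (p s) (q s) (p s') (q s')
  have h5 := Ed_lip X Y (p s) (q s) (p s') (q s') (p s) (t0 + s - p s) (p s') (t0 + s' - p s')
  unfold En
  omega

/-- The mesh point below the position of the path at the beginning of row `i`. -/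
def meshPt (p : ℕ → ℕ) (l h i : ℕ) : ℕ := h * (p (i * l) / h)

/-- **Mesh path.** Rows of length `l` (a multiple of the mesh `h`), a valid window with `K` rows whose
end positions are mesh points: there is a chain of mesh points, all row pairs valid, of total cost
`≤ En + K (4 h + 2)`. -/
theorem exists_mesh {t0 u0 v1 l h K : ℕ} (hh : 0 < h) (hl : h ∣ l)
    (hV : Valid t0 u0 (t0 + K * l) v1) (hu : h ∣ u0) (hv : h ∣ v1) :
    ∃ z : ℕ → ℕ, ∃ w : ℕ → ℕ, z 0 = u0 ∧ z K = v1 ∧ w 0 = 0 ∧ w K = En X Y t0 u0 (t0 + K * l) v1 ∧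
      Monotone w ∧ (∀ i, i ≤ K → h ∣ z i) ∧
      (∀ i j, i ≤ j → j ≤ K → Valid (t0 + i * l) (z i) (t0 + j * l) (z j)) ∧
      (∀ i j, i ≤ j → j ≤ K →
        w i + En X Y (t0 + i * l) (z i) (t0 + j * l) (z j) ≤ w j + (4 * h + 2)) ∧
      (∀ i j, i ≤ j → j ≤ K →
        w j ≤ w i + En X Y (t0 + i * l) (z i) (t0 + j * l) (z j) + (4 * h + 2)) := by
  obtain ⟨p, q, w, P⟩ := exists_realPath X Y hV.hx hV.hy
  have hN : t0 + K * l - t0 = K * l := by omega
  have hwin : (v1 - u0) + ((t0 + K * l - v1) - (t0 - u0)) = K * l := by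
    have := hV.hu; have := hV.hv; have := hV.hx; have := hV.hy; omega
  have hmul : ∀ i j, i ≤ j → i * l ≤ j * l := fun i j hij => Nat.mul_le_mul_right l hij
  have hz1 : ∀ i, meshPt p l h i ≤ p (i * l) := fun i => Nat.mul_div_le _ _
  have hz2 : ∀ i, p (i * l) < meshPt p l h i + h := fun i => by
    have := Nat.lt_mul_div_succ (p (i * l)) hh
    unfold meshPt; rw [Nat.mul_add] at this; omega
  have hval : ∀ i j, i ≤ j → j ≤ K →
      Valid (t0 + i * l) (meshPt p l h i) (t0 + j * l) (meshPt p l h j) := by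
    intro i j hij hj
    have h1 := P.valid X Y hV (hmul i j hij) (by rw [hN]; exact hmul j K hj)
    have h2 := (valid_iff h1.le h1.hu).1 h1
    refine (valid_iff h1.le ((hz1 i).trans h1.hu)).2 ⟨?_, ?_⟩
    · exact Nat.mul_le_mul_left h (Nat.div_le_div_right h2.1)
    · obtain ⟨m, hm⟩ := hl
      have e : t0 + j * l - (t0 + i * l) = h * ((j - i) * m) := by
        rw [show t0 + j * l - (t0 + i * l) = j * l - i * l by omega, ← Nat.sub_mul, hm]; ring
      rw [e] at h2 ⊢
      have h3 : p (j * l) / h ≤ p (i * l) / h + (j - i) * m := by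
        calc p (j * l) / h ≤ (p (i * l) + h * ((j - i) * m)) / h := Nat.div_le_div_right h2.2
          _ = _ := by rw [Nat.add_mul_div_left _ _ hh]
      calc meshPt p l h j = h * (p (j * l) / h) := rfl
        _ ≤ h * (p (i * l) / h + (j - i) * m) := Nat.mul_le_mul_left h h3
        _ = _ := by rw [Nat.mul_add]; rfl
  refine ⟨meshPt p l h, fun i => w (i * l), ?_, ?_, ?_, ?_, ?_, ?_, hval, ?_, ?_⟩
  · simp only [meshPt, Nat.zero_mul, P.p0]; exact Nat.mul_div_cancel' hu
  · simp only [meshPt]; rw [P.pe (K * l) (by omega)]; exact Nat.mul_div_cancel' hv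
  · simp only [Nat.zero_mul, P.w0]
  · simp only; rw [P.we (K * l) (by omega)]; rfl
  · intro i j hij; exact P.mw (hmul i j hij)
  · intro i _; exact Dvd.intro _ rfl
  · intro i j hij hj
    have h1 := P.en_le X Y hV (hmul i j hij) (by rw [hN]; exact hmul j K hj)
    have h2 := En_lip X Y (t0 + i * l) (meshPt p l h i) (t0 + j * l) (meshPt p l h j)
      (p (i * l)) (p (j * l))
    have := hz1 i; have := hz2 i; have := hz1 j; have := hz2 j
    simp only
    omega
  · intro i j hij hj
    have h1 := P.en_le X Y hV (hmul i j hij) (by rw [hN]; exact hmul j K hj)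
    have h2 := En_lip X Y (t0 + i * l) (p (i * l)) (t0 + j * l) (p (j * l))
      (meshPt p l h i) (meshPt p l h j)
    have := hz1 i; have := hz2 i; have := hz1 j; have := hz2 j
    simp only
    omega

end Time

/-! ### Padding -/

theorem lev_append_same (x y z : List ℕ) : lev (x ++ z) (y ++ z) = lev x y := by
  induction z using List.reverseRecOn with
  | nil => simp
  | append_singleton z c ih =>
    rw [← List.append_assoc, ← List.append_assoc, lev_snoc_snoc, ih, if_pos rfl]
    have h1 := lev_drop_right (x ++ z) (y ++ z) [c]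
    have h2 := lev_drop_right (y ++ z) (x ++ z) [c]
    rw [lev_comm (y ++ z) (x ++ z), lev_comm (y ++ z) ((x ++ z) ++ [c])] at h2
    rw [ih] at h1 h2
    simp only [List.length_singleton] at h1 h2
    omega

theorem seg_pad (x : List ℕ) (p : ℕ) :
    seg (fun i => x.getD i 0) 0 (x.length + p) = x ++ List.replicate p 0 := by
  rw [seg_add, seg_list]
  congr 1
  apply List.ext_getElem
  · simp [length_seg]
  · intro n h1 h2
    simp [seg]

/-- The edit distance of two lists and of the zero-padded arrays. -/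
theorem lev_pad (x y : List ℕ) (p : ℕ) :
    Ed (fun i => x.getD i 0) (fun i => y.getD i 0) 0 0 (x.length + p) (y.length + p) = lev x y := by
  rw [Ed, dist, Nat.sub_zero, Nat.sub_zero, seg_pad, seg_pad, lev_append_same]

/-- Final point: for any time `T ≥ |x| + |y|` the point `|x| + (T - |x| - |y|) / 2` carries the edit
distance up to `1`. -/
theorem En_final (x y : List ℕ) (T : ℕ) (hT : x.length + y.length ≤ T) :
    lev x y ≤ En (fun i => x.getD i 0) (fun i => y.getD i 0) 0 0 T
        (x.length + (T - x.length - y.length) / 2) + 1 ∧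
    En (fun i => x.getD i 0) (fun i => y.getD i 0) 0 0 T
        (x.length + (T - x.length - y.length) / 2) ≤ lev x y + 1 := by
  set p := (T - x.length - y.length) / 2 with hp
  have h1 := lev_pad x y p
  have h2 := Ed_lip (fun i => x.getD i 0) (fun i => y.getD i 0) 0 0 (x.length + p) (y.length + p)
    0 0 (x.length + p) (T - (x.length + p))
  have h3 := Ed_lip (fun i => x.getD i 0) (fun i => y.getD i 0) 0 0 (x.length + p)
    (T - (x.length + p)) 0 0 (x.length + p) (y.length + p)
  unfold En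
  rw [Nat.sub_zero]
  omega

end Vale.Agent.P315.H54
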