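import Vale.Agent.P315.H54.ShiftFree
import Vale.Agent.P315.H846.Stmt2
import Vale.Agent.P315.H36.Vis

/-!
P315, milestone 2: the instance of the query problem (`H846.Inst2`) for two strings.

* `frame_clsPar` : the geometry `clsPar` is a moving frame.
* `pathOK_M`, `chainM`, `inst2_M` : masses `S0M = c1 * D + w0`, positions `posM`, the chain and
  `Inst2` of a shift-free optimal mesh route, for all visible costs with
  `vis ≤ (c1 + 1) * hid + w0` in the rows of the route.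
* `visM`, `visM_ge`, `visM_rows` : the visible costs given by the base algorithm `START`.
* `exists_inst2`, `exists_inst2_start` : two strings.
-/

set_option autoImplicit false

namespace Vale.Agent.P315.H54

open Vale.Agent.P315 Vale.Agent.P315.C Vale.Agent.P315.H95 Finset

/-! ### The frame of `clsPar` -/

theorem frame_clsPar {m ℓ μ B w0 J S H Kc D1 l2 c0 : ℕ} (hℓ : ℓ = 2 * l2) (hμ : 0 < μ)
    (h1 : μ ∣ l2) (h2 : μ ∣ c0) (hB : c0 ≤ B) :
    Frame (clsPar m ℓ μ B w0 J S H Kc D1) l2 c0 where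
  sh := rfl
  adm := fun p q => by
    show Nat.dist p q ≤ ℓ / 2 ↔ _
    unfold Nat.dist; omega
  μ_pos := hμ
  dvd_l2 := h1
  dvd_c0 := h2
  le_B := hB

/-! ### Masses and positions of the route, extended beyond the last row -/

/-- Masses. -/
def S0M (c1 w0 K : ℕ) (D : ℕ → ℕ) (i : ℕ) : ℕ := if i < K then c1 * D i + w0 else w0

/-- Positions. -/
def posM (K : ℕ) (pos : ℕ → ℕ) (i : ℕ) : ℕ := pos (min i K)

theorem posM_of_le {K : ℕ} (pos : ℕ → ℕ) {i : ℕ} (h : i ≤ K) : posM K pos i = pos i := by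
  unfold posM; rw [min_eq_left h]

theorem S0M_of_lt {c1 w0 K : ℕ} (D : ℕ → ℕ) {i : ℕ} (h : i < K) :
    S0M c1 w0 K D i = c1 * D i + w0 := if_pos h

/-- The shift-free route. -/
abbrev RouteM (P : Par) (X Y : ℕ → ℕ) (l2 c0 K v : ℕ) (pos D : ℕ → ℕ) : Prop :=
  PStarM P X Y l2 c0 K v pos (fun i => pos (i + 1)) D

section
variable {m n μ B w0 J S H Kc D1 l2 c0 κr c1 v : ℕ} {X Y pos D : ℕ → ℕ}

theorem S0M_sum (c1 w0 K : ℕ) (D : ℕ → ℕ) :
    ∑ i ∈ range K, S0M c1 w0 K D i = c1 * ∑ i ∈ range K, D i + K * w0 := by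
  have h : ∑ i ∈ range K, S0M c1 w0 K D i = ∑ i ∈ range K, (c1 * D i + w0) :=
    Finset.sum_congr rfl fun i hi => S0M_of_lt D (Finset.mem_range.1 hi)
  rw [h, Finset.sum_add_distrib, Finset.mul_sum, Finset.sum_const, Finset.card_range, smul_eq_mul]

theorem S0M_le {K : ℕ} (hD : ∀ i < K, D i ≤ 2 * l2) (hK : c1 * (2 * l2) + w0 ≤ 2 ^ Kc * w0)
    (i : ℕ) : S0M c1 w0 K D i ≤ 2 ^ Kc * w0 := by
  unfold S0M
  split_ifs with h
  · exact (Nat.add_le_add_right (Nat.mul_le_mul_left c1 (hD i h)) w0).trans hK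
  · exact (Nat.le_add_left _ _).trans hK

/-- **`PathOK` for the route**, any class of the root. -/
theorem pathOK_M {P : Par} (F : Frame P l2 c0) (hP : RouteM P X Y l2 c0 ((2 ^ m) ^ n) v pos D)
    (hw : 0 < w0) (hc1 : 1 ≤ c1) (hK : c1 * (2 * l2) + w0 ≤ 2 ^ Kc * w0) (hκ : κr ≤ Kc + 3)
    (hroot : mass m (S0M c1 w0 ((2 ^ m) ^ n) D) n 0 ≤ wd m w0 n κr)
    (hbox : c0 + (2 ^ m) ^ n * l2 ≤ 2 * wd m w0 n κr) :
    PathOK m w0 Kc n κr (S0M c1 w0 ((2 ^ m) ^ n) D) (posM ((2 ^ m) ^ n) pos) where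
  w0_pos := hw
  le_S0 := fun i => by unfold S0M; split_ifs <;> omega
  S0_le := S0M_le (fun i hi => (hP.D_le F hi).2) hK
  dist_le := fun i => by
    rcases Nat.lt_or_ge i ((2 ^ m) ^ n) with h | h
    · rw [posM_of_le pos h.le, posM_of_le pos (show i + 1 ≤ _ from h), S0M_of_lt D h]
      have h1 := hP.two_dist F h
      have h2 : D i ≤ c1 * D i := Nat.le_mul_of_pos_left _ hc1
      omega
    · unfold posM
      rw [min_eq_right h, min_eq_right (by omega), Nat.dist_self]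
      exact Nat.zero_le _
  root_le := hroot
  root_cl := hκ
  root_box := fun r hr => by
    rw [posM_of_le pos hr]
    exact (hP.pos_le hr).trans hbox

/-- The root may have the class `Kc`. -/
theorem mass_root_le {K : ℕ} (hD : ∀ i < K, D i ≤ 2 * l2)
    (hK : c1 * (2 * l2) + w0 ≤ 2 ^ Kc * w0) : mass m (S0M c1 w0 K D) n 0 ≤ wd m w0 n Kc := by
  unfold mass
  refine (Finset.sum_le_sum fun r _ => S0M_le hD hK (0 * (2 ^ m) ^ n + r)).trans ?_
  rw [Finset.sum_const, Finset.card_range, smul_eq_mul]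
  unfold wd
  exact le_of_eq (by ring)

/-- The gap bound in the rows of the route. -/
def GapOK (vis hid : Leaf) (K c1 w0 : ℕ) (pos : ℕ → ℕ) : Prop :=
  ∀ i < K, vis i (pos i) (pos (i + 1)) ≤ (c1 + 1) * hid i (pos i) (pos (i + 1)) + w0

/-- **The chain of the route.** -/
noncomputable def chainM {vis : Leaf}
    (F : Frame (clsPar m (2 * l2) μ B w0 J S H (Kc + 3) D1) l2 c0)
    (hP : RouteM (clsPar m (2 * l2) μ B w0 J S H (Kc + 3) D1) X Y l2 c0 ((2 ^ m) ^ n) v pos D)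
    (hpath : PathOK m w0 Kc n κr (S0M c1 w0 ((2 ^ m) ^ n) D) (posM ((2 ^ m) ^ n) pos))
    (hvis : VisOK (clsPar m (2 * l2) μ B w0 J S H (Kc + 3) D1) vis (hidM X Y l2 c0))
    (hgap : GapOK vis (hidM X Y l2 c0) ((2 ^ m) ^ n) c1 w0 pos) :
    H808.Chain (clsPar m (2 * l2) μ B w0 J S H (Kc + 3) D1) vis (hidM X Y l2 c0) n where
  pos := posM ((2 ^ m) ^ n) pos
  lab := lab m w0 (S0M c1 w0 ((2 ^ m) ^ n) D) (posM ((2 ^ m) ^ n) pos) n κr
  d := fun i => (D i : ℝ)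
  w := fun i => (S0M c1 w0 ((2 ^ m) ^ n) D i : ℝ)
  w_pos := fun i => by
    have h := hpath.le_S0 i
    have h' := hpath.w0_pos
    exact_mod_cast lt_of_lt_of_le h' h
  kid := fun j i r hj hi hr => hpath.kid hj hr hi
  cell := fun i hi R hR => by
    have hi' : i < (2 ^ m) ^ n := hi
    have hbox := hpath.inBox_lab (j := 0) (i := i) (r := i) (Nat.zero_le n)
      (by rw [Nat.sub_zero]; exact hi) (by rw [pow_zero, mul_one]) (by rw [pow_zero]; omega)
    rw [posM_of_le pos hi'.le] at hbox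
    have h1 := hP.cell F vis R hi' hR hbox
    show (best _ _ i 1 (posM _ pos i) (posM _ pos (i + 1)) : ℝ) ≤ _
    rw [posM_of_le pos hi'.le, posM_of_le pos (show i + 1 ≤ _ from hi')]
    exact_mod_cast h1
  free := fun i hi R => by
    have hi' : i < (2 ^ m) ^ n := hi
    have h0 := (hP.D_le F hi').1
    have h1 := hP.best_known F hvis R (w := c1 * D i + w0) hi' (by
      refine (hgap i hi').trans (le_of_eq ?_)
      rw [h0]; ring)
    show (best _ _ i 1 (posM _ pos i) (posM _ pos (i + 1)) : ℝ) ≤ _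
    rw [posM_of_le pos hi'.le, posM_of_le pos (show i + 1 ≤ _ from hi'), S0M_of_lt D hi']
    exact_mod_cast h1

/-- **`Inst2` of the route.** -/
theorem inst2_M {vis : Leaf}
    (F : Frame (clsPar m (2 * l2) μ B w0 J S H (Kc + 3) D1) l2 c0)
    (hP : RouteM (clsPar m (2 * l2) μ B w0 J S H (Kc + 3) D1) X Y l2 c0 ((2 ^ m) ^ n) v pos D)
    (hpath : PathOK m w0 Kc n κr (S0M c1 w0 ((2 ^ m) ^ n) D) (posM ((2 ^ m) ^ n) pos))
    (hvis : ∀ i p q, (clsPar m (2 * l2) μ B w0 J S H (Kc + 3) D1).adm p q →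
      hidM X Y l2 c0 i p q ≤ vis i p q)
    (hgap : GapOK vis (hidM X Y l2 c0) ((2 ^ m) ^ n) c1 w0 pos)
    (hB : c0 + (2 ^ m) ^ n * l2 ≤ B) :
    H846.Inst2 (clsPar m (2 * l2) μ B w0 J S H (Kc + 3) D1) m w0 Kc κr vis (hidM X Y l2 c0) n
      (S0M c1 w0 ((2 ^ m) ^ n) D)
      (chainM F hP hpath (fun i p q h => hvis i p q h.2.2.2.2) hgap) where
  pt := ⟨0, dvd_zero _, Nat.zero_le _, (F.adm 0 0).2 ⟨Nat.zero_le _, Nat.zero_le _⟩⟩
  hid_le := hvis
  path := hpath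
  pos_le := fun i hi => by
    show posM _ pos i ≤ B
    have hi' : i ≤ (2 ^ m) ^ n := hi
    rw [posM_of_le pos hi']
    exact (hP.pos_le hi').trans hB
  lab := fun _ _ => rfl
  w := fun _ => rfl
  lower := fun R j i hj hi => by
    have hi' : i < (2 ^ m) ^ (n - j) := hi
    have hK : (i + 1) * (2 ^ m) ^ j ≤ (2 ^ m) ^ n := by
      calc (i + 1) * (2 ^ m) ^ j ≤ (2 ^ m) ^ (n - j) * (2 ^ m) ^ j := Nat.mul_le_mul_right _ hi'
        _ = (2 ^ m) ^ n := by rw [← pow_add, Nat.sub_add_cancel hj]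
    have h1 := hP.lower F (fun i p q h => hvis i p q h.2.2.2.2) R j i hK
    show ∑ r ∈ range ((2 ^ m) ^ j), (D (i * (2 ^ m) ^ j + r) : ℝ) ≤
      (cval _ vis (hidM X Y l2 c0) R j i (posM _ pos (i * (2 ^ m) ^ j))
        (posM _ pos ((i + 1) * (2 ^ m) ^ j)) : ℝ)
    have e1 : i * (2 ^ m) ^ j ≤ (i + 1) * (2 ^ m) ^ j := Nat.mul_le_mul_right _ (by omega)
    rw [posM_of_le pos (e1.trans hK), posM_of_le pos hK]
    exact_mod_cast h1

end

/-! ### Visible costs from the base algorithm -/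

/-- Visible cost of a row: the value of the base algorithm. -/
noncomputable def visM (q : H36.SP) (X Y hub off : ℕ → ℕ) (l2 c0 : ℕ) : Leaf :=
  fun i p r => q.visE X Y hub off (i * (2 * l2)) (xi l2 c0 i p) ((i + 1) * (2 * l2))
    (xi l2 c0 (i + 1) r)

section
variable {q : H36.SP} {X Y hub off : ℕ → ℕ} {l2 c0 : ℕ}

/-- Certified. -/
theorem visM_ge (hq : q.Ok) (hl : 2 * l2 < 2 ^ (q.e + 1)) {i p r : ℕ} (h1 : p ≤ r + l2)
    (h2 : r ≤ p + l2) : hidM X Y l2 c0 i p r ≤ visM q X Y hub off l2 c0 i p r := by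
  have hv := xi_valid (c0 := c0) (i := i) h1 h2
  refine H36.SP.En_le_visE hq hub off ?_
  have h3 := (valid_iff hv.le hv.hu).1 hv
  have h4 := hv.hu; have h5 := hv.hv
  have e := succ_two (l2 := l2) i
  omega

/-- At most the length of a row. -/
theorem visM_le {i p r : ℕ} (h1 : p ≤ r + l2) (h2 : r ≤ p + l2) :
    visM q X Y hub off l2 c0 i p r ≤ 2 * l2 := by
  have hv := xi_valid (c0 := c0) (i := i) h1 h2
  have h3 := H36.SP.visE_le_len (q := q) (X := X) (Y := Y) hub off hv.hx hv.hy hv.hu hv.hv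
  have e := succ_two (l2 := l2) i
  unfold visM
  omega

open Classical in
/-- **The rows of a fixed route are good with probability at least `63/64`.** -/
theorem visM_rows (hq : q.Ok) (hl : 2 * l2 < 2 ^ (q.e + 1)) {N Tn o : ℕ} (hN : 0 < N)
    (hMN : q.M ∣ N) (hbN : q.b ∣ N) (ho : o + q.s + q.R ≤ Tn) {K : ℕ} (hK : K ≤ 2 ^ q.kap)
    {w0 : ℕ} (hw : 2 ^ (q.e - q.lam) ≤ w0) {P : Par} {v : ℕ} {pos D : ℕ → ℕ}
    (F : Frame P l2 c0) (hP : RouteM P X Y l2 c0 K v pos D) :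
    64 * (Finset.univ.filter (fun ρ : Fin Tn → Fin N =>
      ¬ GapOK (visM q X Y (q.hubOf o (tape ρ)) (q.offOf o (tape ρ)) l2 c0)
        (hidM X Y l2 c0) K 9 w0 pos)).card ≤ N ^ Tn := by
  have h0 := H36.SP.vis_rows (X := X) (Y := Y) hq hN hMN hbN ho K hK (fun i => i * (2 * l2))
    (fun i => xi l2 c0 i (pos i)) (fun i => (i + 1) * (2 * l2))
    (fun i => xi l2 c0 (i + 1) (pos (i + 1))) (fun i hi => by
      have ha := hP.adm F hi
      have hv := xi_valid (c0 := c0) (i := i) ha.1 ha.2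
      have h3 := (valid_iff hv.le hv.hu).1 hv
      have h4 := hv.hu; have h5 := hv.hv
      have e := succ_two (l2 := l2) i
      omega)
  refine le_trans (Nat.mul_le_mul_left 64 (Finset.card_le_card ?_)) h0
  intro ρ hρ
  have h1 := (Finset.mem_filter.mp hρ).2
  unfold GapOK at h1
  push Not at h1
  obtain ⟨i, hi, hlt⟩ := h1
  refine Finset.mem_filter.mpr ⟨Finset.mem_univ _, i, hi, ?_⟩
  have h2 : hidM X Y l2 c0 i (pos i) (pos (i + 1)) =
      En X Y (i * (2 * l2)) (xi l2 c0 i (pos i)) ((i + 1) * (2 * l2))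
        (xi l2 c0 (i + 1) (pos (i + 1))) := rfl
  rw [h2] at hlt
  unfold visM at hlt
  omega

end

/-! ### Two strings -/

/-- **Instance for two strings.** `K = (2 ^ m) ^ n` rows of length `2 * l2`, `c0 = K * l2`, root class
`Kc`. -/
theorem exists_inst2 (x y : List ℕ) {m n μ B w0 Kc l2 c1 : ℕ} (hμ : 0 < μ) (h1 : μ ∣ l2)
    (hlen : x.length + y.length ≤ (2 ^ m) ^ n * (2 * l2)) (hB : (2 ^ m) ^ n * (2 * l2) ≤ B)
    (hw : 0 < w0) (hc1 : 1 ≤ c1) (hK : c1 * (2 * l2) + w0 ≤ 2 ^ Kc * w0) (J S H D1 : ℕ) :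
    ∃ pos D : ℕ → ℕ,
      RouteM (clsPar m (2 * l2) μ B w0 J S H (Kc + 3) D1) (fun i => x.getD i 0)
        (fun i => y.getD i 0) l2 ((2 ^ m) ^ n * l2) ((2 ^ m) ^ n)
        (pendF x y μ l2 ((2 ^ m) ^ n * l2) ((2 ^ m) ^ n)) pos D ∧
      ∑ i ∈ range ((2 ^ m) ^ n), D i ≤ ED x y + 1 + (2 ^ m) ^ n * (8 * μ + 2) + 2 * μ ∧
      ∀ vis : Leaf,
        (∀ i p q, (clsPar m (2 * l2) μ B w0 J S H (Kc + 3) D1).adm p q →
          hidM (fun i => x.getD i 0) (fun i => y.getD i 0) l2 ((2 ^ m) ^ n * l2) i p q ≤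
            vis i p q) →
        GapOK vis (hidM (fun i => x.getD i 0) (fun i => y.getD i 0) l2 ((2 ^ m) ^ n * l2))
          ((2 ^ m) ^ n) c1 w0 pos →
        ∃ C : H808.Chain (clsPar m (2 * l2) μ B w0 J S H (Kc + 3) D1) vis
            (hidM (fun i => x.getD i 0) (fun i => y.getD i 0) l2 ((2 ^ m) ^ n * l2)) n,
          H846.Inst2 (clsPar m (2 * l2) μ B w0 J S H (Kc + 3) D1) m w0 Kc Kc vis
            (hidM (fun i => x.getD i 0) (fun i => y.getD i 0) l2 ((2 ^ m) ^ n * l2)) n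
            (S0M c1 w0 ((2 ^ m) ^ n) D) C ∧
          C.pos 0 = (2 ^ m) ^ n * l2 ∧
          C.pos ((2 ^ m) ^ n) = pendF x y μ l2 ((2 ^ m) ^ n * l2) ((2 ^ m) ^ n) ∧
          (∀ i, C.d i = D i) := by
  set K := (2 ^ m) ^ n with hKdef
  have e2 : K * (2 * l2) = K * l2 + K * l2 := by ring
  have hcB : K * l2 ≤ B := by omega
  have F : Frame (clsPar m (2 * l2) μ B w0 J S H (Kc + 3) D1) l2 (K * l2) :=
    frame_clsPar rfl hμ h1 (h1.mul_left K) hcB
  obtain ⟨pos, D, hP, hs, -⟩ := exists_pstarF_strings F x y K hlen le_rfl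
    (show K * l2 + K * l2 ≤ B by omega)
  refine ⟨pos, D, hP, hs, fun vis hvis hgap => ?_⟩
  have hpath : PathOK m w0 Kc n Kc (S0M c1 w0 K D) (posM K pos) := by
    refine pathOK_M F hP hw hc1 hK (by omega)
      (mass_root_le (fun i hi => (hP.D_le F hi).2) hK) ?_
    have h3 : 2 * l2 ≤ 2 ^ Kc * w0 := by
      have : 2 * l2 ≤ c1 * (2 * l2) := Nat.le_mul_of_pos_left _ hc1
      omega
    calc K * l2 + K * l2 = K * (2 * l2) := by ring
      _ ≤ K * (2 ^ Kc * w0) := Nat.mul_le_mul_left _ h3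
      _ = wd m w0 n Kc := by unfold wd; rw [hKdef]; ring
      _ ≤ 2 * wd m w0 n Kc := by omega
  refine ⟨chainM F hP hpath (fun i p q h => hvis i p q h.2.2.2.2) hgap,
    inst2_M F hP hpath hvis hgap (show K * l2 + K * l2 ≤ B by omega), ?_, ?_, fun _ => rfl⟩
  · show posM K pos 0 = _
    rw [posM_of_le pos (Nat.zero_le _)]
    exact hP.zero
  · show posM K pos K = _
    rw [posM_of_le pos le_rfl]
    exact hP.last

end Vale.Agent.P315.H54
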