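import Vale.Agent.P315.H54.ChainM
import Vale.Agent.P315.H731.Arr2

/-!
P315, milestone 2, T-TOP: from the query theorem `Good2` for one choice of the parameters to two
thirds of the seeds being good, for two strings.

* `visM_seeds` : the rows of a fixed route are good for all but `1 / 64` of the seeds of `START`.
* `visC` : the visible costs given by an array of seeds.
* `good2_one` : one input, one choice of the parameters.
-/

set_option autoImplicit false

namespace Vale.Agent.P315.H54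

open Vale.Agent.P315 Vale.Agent.P315.C Vale.Agent.P315.H95 Finset
open Vale.Agent.P315.H846 (Inst2 Good2)
open Vale.Agent.P315.H659 (nSeed rndOf arrOf toRnd Ix adr adr_lt adr_injective)
open Vale.Agent.P315.H731 (good2_plug rndOf_shift arrOf_lt rootVal rootRd)
open Vale.Agent.P315.H142 (ext0 ext0_apply)

/-- The visible costs depend only on the first hubs and offsets. -/
theorem visM_congr {q : H36.SP} {X Y hub hub' off off' : ℕ → ℕ} {l2 c0 : ℕ}
    (h : ∀ t < q.s, hub t = hub' t) (h' : ∀ t < q.R, off t = off' t) :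
    visM q X Y hub off l2 c0 = visM q X Y hub' off' l2 c0 := by
  funext i p r
  unfold visM H36.SP.visE
  rw [H36.startVal_congr _ h h']

section
variable {q : H36.SP} {X Y : ℕ → ℕ} {l2 c0 : ℕ}

open Classical in
/-- **The rows of a fixed route are good for all but `1 / 64` of the seeds.** -/
theorem visM_seeds (hq : q.Ok) (hl : 2 * l2 < 2 ^ (q.e + 1)) {K : ℕ} (hK : K ≤ 2 ^ q.kap)
    {w0 : ℕ} (hw : 2 ^ (q.e - q.lam) ≤ w0) {P : C.Par} {v : ℕ} {pos D : ℕ → ℕ}
    (F : Frame P l2 c0) (hP : RouteM P X Y l2 c0 K v pos D) :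
    64 * (Finset.univ.filter (fun z : (Fin q.s → Fin q.M) × (Fin q.R → Fin q.b) =>
      ¬ GapOK (visM q X Y (ext0 z.1) (ext0 z.2) l2 c0)
        (hidM X Y l2 c0) K 9 w0 pos)).card ≤ q.M ^ q.s * q.b ^ q.R := by
  have hr : ∀ i < K, xi l2 c0 (i + 1) (pos (i + 1)) - xi l2 c0 i (pos i) < 2 ^ (q.e + 1) ∧
      ((i + 1) * (2 * l2) - xi l2 c0 (i + 1) (pos (i + 1))) -
        (i * (2 * l2) - xi l2 c0 i (pos i)) < 2 ^ (q.e + 1) := fun i hi => by
    have ha := hP.adm F hi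
    have hv := xi_valid (c0 := c0) (i := i) ha.1 ha.2
    have h3 := (valid_iff hv.le hv.hu).1 hv
    have h4 := hv.hu; have h5 := hv.hv
    have e := succ_two (l2 := l2) i
    omega
  let T : Finset (ℕ × ℕ × ℕ × ℕ) := (Finset.range K).image (fun i =>
    (xi l2 c0 i (pos i), xi l2 c0 (i + 1) (pos (i + 1)) - xi l2 c0 i (pos i),
      i * (2 * l2) - xi l2 c0 i (pos i),
      ((i + 1) * (2 * l2) - xi l2 c0 (i + 1) (pos (i + 1))) -
        (i * (2 * l2) - xi l2 c0 i (pos i))))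
  have hT : T.card ≤ 2 ^ q.kap := by
    refine (Finset.card_image_le).trans ?_
    rw [Finset.card_range]; exact hK
  have h0 := H36.SP.start_seeds (X := X) (Y := Y) hq T hT (fun z hz => by
    obtain ⟨i, hi, rfl⟩ := Finset.mem_image.mp hz
    exact hr i (Finset.mem_range.mp hi))
  refine le_trans (Nat.mul_le_mul_left 64 (Finset.card_le_card ?_)) h0
  intro z hz
  have h1 := (Finset.mem_filter.mp hz).2
  unfold GapOK at h1
  push Not at h1
  obtain ⟨i, hi, hlt⟩ := h1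
  refine Finset.mem_filter.mpr ⟨Finset.mem_univ _, _, Finset.mem_image.mpr
    ⟨i, Finset.mem_range.mpr hi, rfl⟩, ?_⟩
  have h2 : hidM X Y l2 c0 i (pos i) (pos (i + 1)) =
      En X Y (i * (2 * l2)) (xi l2 c0 i (pos i)) ((i + 1) * (2 * l2))
        (xi l2 c0 (i + 1) (pos (i + 1))) := rfl
  rw [h2] at hlt
  have h3 : (9 + 1) * En X Y (i * (2 * l2)) (xi l2 c0 i (pos i)) ((i + 1) * (2 * l2))
      (xi l2 c0 (i + 1) (pos (i + 1))) + 2 ^ (q.e - q.lam) <
      q.visE X Y (ext0 z.1) (ext0 z.2) (i * (2 * l2)) (xi l2 c0 i (pos i)) ((i + 1) * (2 * l2))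
        (xi l2 c0 (i + 1) (pos (i + 1))) := by
    refine lt_of_le_of_lt ?_ hlt
    exact Nat.add_le_add_left hw _
  exact h3.trans_le (min_le_left _ _)

end

/-! ### Seeds in an array -/

/-- Visible costs for the seeds `c`: the hubs are the words from address `o` on, the offsets those
from `o + q.s` on. -/
noncomputable def visC (q : H36.SP) (x y : List ℕ) (l2 c0 : ℕ) {Ns e : ℕ} (c : Fin Ns → Fin e)
    (o : ℕ) : Leaf :=
  visM q (fun i => x.getD i 0) (fun i => y.getD i 0) (fun t => arrOf c (o + t) % q.M)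
    (fun t => arrOf c (o + q.s + t) % q.b) l2 c0

/-- Hidden costs of two strings. -/
noncomputable abbrev hidC (x y : List ℕ) (l2 c0 : ℕ) : Leaf :=
  hidM (fun i => x.getD i 0) (fun i => y.getD i 0) l2 c0

/-- **One input, one choice of the parameters**: two thirds of the seeds are good. `K` rows of
length `2 * l2`, `c0 = K * l2`; the seeds of the query algorithm are the first words (modulo
`F.q`), the seeds of `START` the words from address `o` on. The output is exact if `ED x y ≤ kb`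
(band), and the certified value of the root plus `2 μ + 1` otherwise. -/
theorem good2_one {F : QPar} {m n μ B w0 J S H Kc D1 l2 Qr Ns o kb e : ℕ} {q : H36.SP}
    {x y : List ℕ} {ε ε' A : ℝ} (hε0 : 0 ≤ ε) (hε' : 0 ≤ ε')
    (hP : F.P = clsPar m (2 * l2) μ B w0 J S H (Kc + 3) D1) (hn : F.n = n) (hq0 : 0 < F.q)
    (hG : Good2 F m w0 Kc Kc ε' A) (hμ : 0 < μ) (h1 : μ ∣ l2)
    (hlen : x.length + y.length ≤ (2 ^ m) ^ n * (2 * l2)) (hB : (2 ^ m) ^ n * (2 * l2) ≤ B)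
    (hw : 0 < w0) (hK : 9 * (2 * l2) + w0 ≤ 2 ^ Kc * w0) (hq : q.Ok)
    (hl : 2 * l2 < 2 ^ (q.e + 1)) (hkap : (2 ^ m) ^ n ≤ 2 ^ q.kap)
    (hlam : 2 ^ (q.e - q.lam) ≤ w0) (he : 0 < e) (hMe : q.M ∣ e) (hbe : q.b ∣ e)
    (hqe : F.q ∣ e) (ho : nSeed n (2 ^ m) S F.Cn ≤ o) (hNs : o + q.s + q.R ≤ Ns)
    (hA : 8 * A + 1 ≤ Qr)
    (herr : kb < ED x y →
      8 * ε' * (9 * (ED x y + 1 + ((2 ^ m) ^ n : ℕ) * (8 * μ + 2) + 2 * μ) +
        ((2 ^ m) ^ n : ℕ) * w0) + (3 + ((2 ^ m) ^ n : ℕ) * (8 * μ + 2) + 4 * μ) ≤ ε * ED x y)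
    (out : (Fin Ns → Fin e) → ℕ) (hout0 : ED x y ≤ kb → ∀ c, out c = ED x y)
    (hout1 : kb < ED x y → ∀ c, ∃ R : Finset (ℕ × ℕ),
      out c = cval F.P (visC q x y l2 ((2 ^ m) ^ n * l2) c o) (hidC x y l2 ((2 ^ m) ^ n * l2)) R n
        0 ((2 ^ m) ^ n * l2) (pendF x y μ l2 ((2 ^ m) ^ n * l2) ((2 ^ m) ^ n)) + (2 * μ + 1) ∧
      ((rd F.P F.mc (rndOf n (2 ^ m) S F.Cn J (fun i => arrOf c i % F.q))
          (visC q x y l2 ((2 ^ m) ^ n * l2) c o) (hidC x y l2 ((2 ^ m) ^ n * l2)) n 0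
          (enc Kc 0 0) F.N).card ≤ Qr →
        R = rd F.P F.mc (rndOf n (2 ^ m) S F.Cn J (fun i => arrOf c i % F.q))
          (visC q x y l2 ((2 ^ m) ^ n * l2) c o) (hidC x y l2 ((2 ^ m) ^ n * l2)) n 0
          (enc Kc 0 0) F.N)) :
    2 * Nat.card (Fin Ns → Fin e) ≤ 3 * Nat.card {c : Fin Ns → Fin e //
      ED x y ≤ out c ∧ (out c : ℝ) ≤ (1 + ε) * ED x y} := by
  classical
  rcases Nat.lt_or_ge kb (ED x y) with hkb | hkb
  swap
  · -- exact output
    have h2 : ∀ c : Fin Ns → Fin e, ED x y ≤ out c ∧ (out c : ℝ) ≤ (1 + ε) * ED x y := by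
      intro c
      rw [hout0 hkb c]
      refine ⟨le_rfl, ?_⟩
      have : (0 : ℝ) ≤ ED x y := Nat.cast_nonneg _
      nlinarith
    rw [Nat.card_congr (Equiv.subtypeUnivEquiv h2)]
    omega
  obtain ⟨P, mach, n', Nr, Cn, qs⟩ := F
  simp only at hP hn hq0 hqe ho hout1 hG ⊢
  subst hP hn
  set K := (2 ^ m) ^ n' with hKdef
  have e2 : K * (2 * l2) = K * l2 + K * l2 := by ring
  have F' : Frame (clsPar m (2 * l2) μ B w0 J S H (Kc + 3) D1) l2 (K * l2) :=
    frame_clsPar rfl hμ h1 (h1.mul_left K) (by omega)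
  obtain ⟨pos, D, hR, hs, hinst⟩ := exists_inst2 x y (m := m) (n := n') (B := B) (w0 := w0)
    (Kc := Kc) (c1 := 9) hμ h1 hlen hB hw (by norm_num) hK J S H D1
  have hM0 : 0 < q.M := Nat.pow_pos (by norm_num)
  have hb0 : 0 < q.b := Nat.pow_pos (by norm_num)
  have k1 : ∀ t : Fin q.s, o + (t : ℕ) < Ns := fun t => by have := t.isLt; omega
  have k2 : ∀ t : Fin q.R, o + q.s + (t : ℕ) < Ns := fun t => by have := t.isLt; omega
  have k3 : ∀ i : Ix n' (2 ^ m) S Cn, adr i < Ns := fun i => by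
    have := adr_lt i
    omega
  have hD : ((∑ i ∈ range K, D i : ℕ) : ℝ) ≤ ED x y + 1 + (K : ℝ) * (8 * μ + 2) + 2 * μ := by
    exact_mod_cast hs
  refine good2_plug (Q := ⟨clsPar m (2 * l2) μ B w0 J S H (Kc + 3) D1, mach, n', Nr, Cn, qs⟩)
    (m := m) (w0 := w0) (Kc := Kc) (κr := Kc) (ε := ε') (A := A)
    hε' hG he hM0 hb0 hq0 hMe hbe hqe
    (fun t : Fin q.s => (⟨o + t, k1 t⟩ : Fin Ns)) (fun t : Fin q.R => ⟨o + q.s + t, k2 t⟩)
    (fun i => ⟨adr i, k3 i⟩) ?_ ?_ ?_ ?_ ?_ ?_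
    (fun z => GapOK (visM q (fun i => x.getD i 0) (fun i => y.getD i 0) (ext0 z.1) (ext0 z.2) l2
      (K * l2)) (hidC x y l2 (K * l2)) K 9 w0 pos)
    (visM_seeds hq hl hkap hlam F' hR)
    (fun z => visM q (fun i => x.getD i 0) (fun i => y.getD i 0) (ext0 z.1) (ext0 z.2) l2
      (K * l2)) (hidC x y l2 (K * l2)) (K * l2) (pendF x y μ l2 (K * l2) K)
    (ED x y + 1 + (K : ℝ) * (8 * μ + 2) + 2 * μ)
    (9 * (ED x y + 1 + (K : ℝ) * (8 * μ + 2) + 2 * μ) + (K : ℝ) * w0) ?_ _ ?_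
  · intro t t' h
    have : o + (t : ℕ) = o + t' := Fin.ext_iff.mp h
    exact Fin.ext (by omega)
  · intro t t' h
    have : o + q.s + (t : ℕ) = o + q.s + t' := Fin.ext_iff.mp h
    exact Fin.ext (by omega)
  · intro i i' h
    have : adr i = adr i' := Fin.ext_iff.mp h
    exact adr_injective this
  · intro t t' h
    have h4 : o + (t : ℕ) = o + q.s + t' := Fin.ext_iff.mp h
    have := t.isLt
    omega
  · intro t i h
    have h4 : o + (t : ℕ) = adr i := Fin.ext_iff.mp h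
    have h5 : adr i < nSeed n' (2 ^ m) S Cn := adr_lt i
    omega
  · intro t i h
    have h4 : o + q.s + (t : ℕ) = adr i := Fin.ext_iff.mp h
    have h5 : adr i < nSeed n' (2 ^ m) S Cn := adr_lt i
    omega
  · intro z hz
    obtain ⟨C, hC, c0, cK, cd⟩ := hinst _ (fun i p r hpr => visM_ge hq hl
      (F'.adm p r |>.1 hpr).1 (F'.adm p r |>.1 hpr).2) hz
    refine ⟨S0M 9 w0 K D, C, hC, c0, cK, ?_, ?_⟩
    · show ∑ i ∈ range K, C.d i ≤ _
      simp only [cd]
      rw [← Nat.cast_sum]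
      exact hD
    · show ∑ i ∈ range K, ((S0M 9 w0 K D i : ℕ) : ℝ) ≤ _
      rw [← Nat.cast_sum, S0M_sum]
      push_cast
      push_cast at hD
      linarith
  · intro c z w z1 z2 z3 _ hv hr
    have hvis : visM q (fun i => x.getD i 0) (fun i => y.getD i 0) (ext0 z.1) (ext0 z.2) l2
        (K * l2) = visC q x y l2 (K * l2) c o := by
      refine visM_congr (fun t ht => ?_) (fun t ht => ?_)
      · rw [ext0_apply z.1 ⟨t, ht⟩, z1 ⟨t, ht⟩, arrOf_lt c (k1 ⟨t, ht⟩)]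
      · rw [ext0_apply z.2 ⟨t, ht⟩, z2 ⟨t, ht⟩, arrOf_lt c (k2 ⟨t, ht⟩)]
    have hw' : ∀ i : Ix n' (2 ^ m) S Cn, (w i : ℕ) = arrOf c (0 + adr i) % qs := fun i => by
      rw [Nat.zero_add, arrOf_lt c (k3 i)]
      exact z3 i
    have hRd : rndOf n' (2 ^ m) S Cn J (fun i => arrOf c i % qs) = toRnd J w := by
      have h := rndOf_shift (n := n') (M := 2 ^ m) (S := S) (Cn := Cn) (J := J) (arrOf c) w hw'
      simp only [Nat.zero_add] at h
      exact h
    obtain ⟨R, hR1, hR2⟩ := hout1 hkb c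
    have hcert := cval_cert_EDF F' x y (vis := visC q x y l2 (K * l2) c o)
      (fun i p r hpr => visM_ge hq hl ((F'.adm p r).1 hpr.2.2.2.2).1
        ((F'.adm p r).1 hpr.2.2.2.2).2) R n' hlen le_rfl (K * l2)
    refine ⟨?_, ?_⟩
    · rw [hR1]
      exact hcert
    · have hcard : (rd (clsPar m (2 * l2) μ B w0 J S H (Kc + 3) D1) mach
          (rndOf n' (2 ^ m) S Cn J (fun i => arrOf c i % qs))
          (visC q x y l2 (K * l2) c o) (hidC x y l2 (K * l2)) n' 0 (enc Kc 0 0) Nr).card ≤ Qr := by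
        rw [hRd, ← hvis]
        have h5 := hr.trans hA
        unfold rootRd at h5
        exact_mod_cast h5
      have h6 := hR2 hcard
      rw [hR1, h6, hRd, ← hvis]
      have h7 : ((cval (clsPar m (2 * l2) μ B w0 J S H (Kc + 3) D1)
          (visM q (fun i => x.getD i 0) (fun i => y.getD i 0) (ext0 z.1) (ext0 z.2) l2 (K * l2))
          (hidC x y l2 (K * l2))
          (rd (clsPar m (2 * l2) μ B w0 J S H (Kc + 3) D1) mach (toRnd J w)
            (visM q (fun i => x.getD i 0) (fun i => y.getD i 0) (ext0 z.1) (ext0 z.2) l2 (K * l2))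
            (hidC x y l2 (K * l2)) n' 0 (enc Kc 0 0) Nr) n' 0 (K * l2)
          (pendF x y μ l2 (K * l2) K) : ℕ) : ℝ) ≤
          (ED x y + 1 + (K : ℝ) * (8 * μ + 2) + 2 * μ) +
            8 * ε' * (9 * (ED x y + 1 + (K : ℝ) * (8 * μ + 2) + 2 * μ) + (K : ℝ) * w0) + 1 := hv
      have h8 := herr hkb
      push_cast at h7 h8 ⊢
      linarith
end Vale.Agent.P315.H54
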