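import Vale.Agent.P315.H248.Win

/-!
P315, row M2-WIN, part (A): the moving frame.

Rows have length `2 * l2`. The position `p` at the row boundary `i` (time `i * (2 * l2)`) stands for
the point of the antidiagonal with first index `xi l2 c0 i p = min (p + i * l2 - c0) (i * (2 * l2))`
(double clamp, so the point always exists). Admissible steps: `p ≤ q + l2`, `q ≤ p + l2`. The *cone*
of the boundary `i` is the set of positions `p` with `c0 ≤ p + i * l2`, `p ≤ c0 + i * l2`; inside the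
cones the position determines the point, and a row costs at least `2 * dist p q`.

All statements are about an arbitrary `P : C.Par` with hypotheses on `sh`, `adm`, `μ`, `B` only.
-/

set_option autoImplicit false

namespace Vale.Agent.P315.H54

open Vale.Agent.P315 Vale.Agent.P315.C Finset

/-! ### Positions and points -/

/-- First index of the point with position `p` at the row boundary `i`. -/
def xi (l2 c0 i p : ℕ) : ℕ := min (p + i * l2 - c0) (i * (2 * l2))

/-- Cost of the row `i` from position `p` to position `q`. -/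
def hidM (X Y : ℕ → ℕ) (l2 c0 : ℕ) : Leaf :=
  fun i p q => En X Y (i * (2 * l2)) (xi l2 c0 i p) ((i + 1) * (2 * l2)) (xi l2 c0 (i + 1) q)

/-- `p` lies in the cone at the row boundary `i`. -/
def InCone (l2 c0 i p : ℕ) : Prop := c0 ≤ p + i * l2 ∧ p ≤ c0 + i * l2

/-- Nearest position of the cone. -/
def clc (l2 c0 i p : ℕ) : ℕ := max (c0 - i * l2) (min p (c0 + i * l2))

variable {l2 c0 : ℕ}

theorem xi_le (i p : ℕ) : xi l2 c0 i p ≤ i * (2 * l2) := min_le_right _ _

theorem xi_lip (i p p' : ℕ) : xi l2 c0 i p ≤ xi l2 c0 i p' + Nat.dist p p' := by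
  unfold xi Nat.dist; omega

theorem xi_dist (i p p' : ℕ) : Nat.dist (xi l2 c0 i p) (xi l2 c0 i p') ≤ Nat.dist p p' := by
  unfold xi Nat.dist; omega

theorem succ_two (i : ℕ) : (i + 1) * (2 * l2) = i * (2 * l2) + 2 * l2 := by ring

theorem two_mul_row (i : ℕ) : i * (2 * l2) = 2 * (i * l2) := by ring

theorem xi_step {i p q : ℕ} (h1 : p ≤ q + l2) (h2 : q ≤ p + l2) :
    xi l2 c0 i p ≤ xi l2 c0 (i + 1) q ∧ xi l2 c0 (i + 1) q ≤ xi l2 c0 i p + 2 * l2 := by
  unfold xi
  have e : (i + 1) * l2 = i * l2 + l2 := by ring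
  rw [succ_two, e]
  omega

theorem xi_valid {i p q : ℕ} (h1 : p ≤ q + l2) (h2 : q ≤ p + l2) :
    Valid (i * (2 * l2)) (xi l2 c0 i p) ((i + 1) * (2 * l2)) (xi l2 c0 (i + 1) q) := by
  have h := xi_step (c0 := c0) (i := i) h1 h2
  have e := succ_two (l2 := l2) i
  exact (valid_iff (by omega) (xi_le i p)).2 ⟨h.1, by omega⟩

theorem xi_of_cone {i p : ℕ} (h : InCone l2 c0 i p) : xi l2 c0 i p + c0 = p + i * l2 := by
  unfold xi
  have := h.1; have := h.2
  rw [two_mul_row]; omega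

theorem hidM_eq (X Y : ℕ → ℕ) (i p q : ℕ) : hidM X Y l2 c0 i p q =
    H248.hidW X Y (2 * l2) i (xi l2 c0 i p) (xi l2 c0 (i + 1) q) := rfl

theorem hidM_le (X Y : ℕ → ℕ) {i p q : ℕ} (h1 : p ≤ q + l2) (h2 : q ≤ p + l2) :
    hidM X Y l2 c0 i p q ≤ 2 * l2 := by
  have h := En_le X Y (xi_valid (c0 := c0) (i := i) h1 h2)
  have e := succ_two (l2 := l2) i
  unfold hidM
  omega

theorem hidM_lip (X Y : ℕ → ℕ) (i p q p' q' : ℕ) : hidM X Y l2 c0 i p q ≤
    hidM X Y l2 c0 i p' q' + 2 * Nat.dist p p' + 2 * Nat.dist q q' := by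
  have h := H248.hidW_lip X Y (2 * l2) i (xi l2 c0 i p) (xi l2 c0 (i + 1) q)
    (xi l2 c0 i p') (xi l2 c0 (i + 1) q')
  have h1 := xi_dist (l2 := l2) (c0 := c0) i p p'
  have h2 := xi_dist (l2 := l2) (c0 := c0) (i + 1) q q'
  rw [hidM_eq, hidM_eq]
  omega

/-- Inside the cones a row costs at least twice the displacement. -/
theorem two_dist_le_hidM (X Y : ℕ → ℕ) {i p q : ℕ} (h1 : p ≤ q + l2) (h2 : q ≤ p + l2)
    (hp : InCone l2 c0 i p) (hq : InCone l2 c0 (i + 1) q) :
    2 * Nat.dist p q ≤ hidM X Y l2 c0 i p q := by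
  have h := En_disp X Y (xi_valid (c0 := c0) (i := i) h1 h2)
  have hs := xi_step (c0 := c0) (i := i) h1 h2
  have e1 := xi_of_cone hp
  have e2 := xi_of_cone hq
  have e := succ_two (l2 := l2) i
  have e' : (i + 1) * l2 = i * l2 + l2 := by ring
  unfold hidM Nat.dist
  omega

/-! ### Clamping into the cone -/

theorem clc_cone (i p : ℕ) : InCone l2 c0 i (clc l2 c0 i p) := by
  unfold InCone clc; omega

theorem clc_of_cone {i p : ℕ} (h : InCone l2 c0 i p) : clc l2 c0 i p = p := by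
  have := h.1; have := h.2
  unfold clc; omega

theorem xi_clc (i p : ℕ) : xi l2 c0 i (clc l2 c0 i p) = xi l2 c0 i p := by
  unfold xi clc
  rw [two_mul_row]; omega

theorem clc_dist (i p p' : ℕ) :
    Nat.dist (clc l2 c0 i p) (clc l2 c0 i p') ≤ Nat.dist p p' := by
  unfold clc Nat.dist; omega

theorem clc_adm {i p q : ℕ} (h1 : p ≤ q + l2) (h2 : q ≤ p + l2) :
    clc l2 c0 i p ≤ clc l2 c0 (i + 1) q + l2 ∧ clc l2 c0 (i + 1) q ≤ clc l2 c0 i p + l2 := by
  unfold clc
  have e : (i + 1) * l2 = i * l2 + l2 := by ring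
  rw [e]; omega

theorem clc_dvd {μ : ℕ} (h2 : μ ∣ l2) (h0 : μ ∣ c0) (i : ℕ) {p : ℕ} (hp : μ ∣ p) :
    μ ∣ clc l2 c0 i p := by
  unfold clc
  have h3 : μ ∣ i * l2 := h2.mul_left i
  rcases max_choice (c0 - i * l2) (min p (c0 + i * l2)) with h | h
  · rw [h]; exact Nat.dvd_sub h0 h3
  · rw [h]
    rcases min_choice p (c0 + i * l2) with h' | h'
    · rw [h']; exact hp
    · rw [h']; exact Nat.dvd_add h0 h3

theorem clc_le {B : ℕ} (hB : c0 ≤ B) (i : ℕ) {p : ℕ} (hp : p ≤ B) : clc l2 c0 i p ≤ B := by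
  unfold clc; omega

theorem hidM_clc (X Y : ℕ → ℕ) (i p q : ℕ) :
    hidM X Y l2 c0 i (clc l2 c0 i p) (clc l2 c0 (i + 1) q) = hidM X Y l2 c0 i p q := by
  unfold hidM; rw [xi_clc, xi_clc]

/-! ### The certificate -/

/-- Prefix distance at the position `p` of the boundary `i`. -/
def preM (X Y : ℕ → ℕ) (l2 c0 i p : ℕ) : ℕ :=
  pre X Y (xi l2 c0 i p) (i * (2 * l2) - xi l2 c0 i p)

theorem preM_shift (X Y : ℕ → ℕ) (i p p' : ℕ) :
    preM X Y l2 c0 i p' ≤ preM X Y l2 c0 i p + 2 * Nat.dist p p' := by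
  have h := H248.pre_shift X Y (i * (2 * l2)) (xi l2 c0 i p) (xi l2 c0 i p')
  have h1 := xi_dist (l2 := l2) (c0 := c0) i p p'
  unfold preM
  omega

theorem preM_row (X Y : ℕ → ℕ) {i p q : ℕ} (h1 : p ≤ q + l2) (h2 : q ≤ p + l2) :
    preM X Y l2 c0 (i + 1) q ≤ preM X Y l2 c0 i p + hidM X Y l2 c0 i p q := by
  have h := xi_step (c0 := c0) (i := i) h1 h2
  exact H248.pre_row X Y (2 * l2) i h.1 h.2

/-- A route through the rows `i0, …, i0 + m - 1` from `u`. -/
theorem route_certM (X Y : ℕ → ℕ) (f : ℕ → ℕ → ℕ → ℕ) (i0 u : ℕ) (r : ℕ → ℕ × ℕ) (m : ℕ)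
    (hr : ∀ i < m, (r i).1 ≤ (r i).2 + l2 ∧ (r i).2 ≤ (r i).1 + l2)
    (hf : ∀ i < m, hidM X Y l2 c0 (i0 + i) (r i).1 (r i).2 ≤ f i (r i).1 (r i).2) :
    preM X Y l2 c0 (i0 + m) (prevPos u r m) ≤ preM X Y l2 c0 i0 u +
      ∑ i ∈ range m, (2 * Nat.dist (prevPos u r i) (r i).1 + f i (r i).1 (r i).2) := by
  induction m with
  | zero => simp [prevPos]
  | succ m ih =>
    rw [Finset.sum_range_succ]
    have h1 := ih (fun i hi => hr i (by omega)) fun i hi => hf i (by omega)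
    obtain ⟨h2, h3⟩ := hr m (by omega)
    have h4 := preM_shift (l2 := l2) (c0 := c0) X Y (i0 + m) (prevPos u r m) (r m).1
    have h5 := preM_row (c0 := c0) X Y (i := i0 + m) h2 h3
    have h6 := hf m (by omega)
    show preM X Y l2 c0 (i0 + m + 1) (r m).2 ≤ _
    omega

theorem rcost_certM (X Y : ℕ → ℕ) (f : ℕ → ℕ → ℕ → ℕ) (i0 u v : ℕ) (r : ℕ → ℕ × ℕ) (m : ℕ)
    (hr : ∀ i < m, (r i).1 ≤ (r i).2 + l2 ∧ (r i).2 ≤ (r i).1 + l2)
    (hf : ∀ i < m, hidM X Y l2 c0 (i0 + i) (r i).1 (r i).2 ≤ f i (r i).1 (r i).2) :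
    preM X Y l2 c0 (i0 + m) v ≤ preM X Y l2 c0 i0 u + rcost 2 m f u v r := by
  have h1 := route_certM X Y f i0 u r m hr hf
  have h2 := preM_shift (l2 := l2) (c0 := c0) X Y (i0 + m) (prevPos u r m) v
  unfold rcost
  omega

/-- The start: position `c0` at the boundary `0`. -/
theorem preM_start (X Y : ℕ → ℕ) (u : ℕ) : preM X Y l2 c0 0 u = 0 := by
  unfold preM xi
  simp [pre_zero_left]

/-! ### Certified values for an arbitrary parameter structure -/

/-- The geometric hypotheses on the parameters. -/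
structure Frame (P : Par) (l2 c0 : ℕ) : Prop where
  sh : P.sh = 2
  adm : ∀ p q, P.adm p q ↔ p ≤ q + l2 ∧ q ≤ p + l2
  μ_pos : 0 < P.μ
  dvd_l2 : P.μ ∣ l2
  dvd_c0 : P.μ ∣ c0
  le_B : c0 ≤ P.B

variable {P : Par}

theorem Frame.edge (F : Frame P l2 c0) : ∃ p q, H140.Ed P p q :=
  ⟨0, 0, dvd_zero _, dvd_zero _, Nat.zero_le _, Nat.zero_le _,
    (F.adm 0 0).2 ⟨Nat.zero_le _, Nat.zero_le _⟩⟩

theorem le_known {hid vis : Leaf} (R : Finset (ℕ × ℕ)) {i p q : ℕ}
    (h : hid i p q ≤ vis i p q) : hid i p q ≤ known P vis hid R i p q := by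
  unfold known
  split_ifs
  · exact le_rfl
  · exact h

theorem known_le_vis {hid vis : Leaf} (R : Finset (ℕ × ℕ)) {i p q : ℕ}
    (h : hid i p q ≤ vis i p q) : known P vis hid R i p q ≤ vis i p q := by
  unfold known
  split_ifs
  · exact h
  · exact le_rfl

/-- Visible costs are upper bounds of the hidden costs on mesh steps. -/
def VisOK (P : Par) (vis hid : Leaf) : Prop := ∀ i p q, H140.Ed P p q → hid i p q ≤ vis i p q

theorem best_certM (F : Frame P l2 c0) (X Y : ℕ → ℕ) (f : Leaf) (i0 m u v : ℕ)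
    (hf : ∀ i p q, H140.Ed P p q → hidM X Y l2 c0 i p q ≤ f i p q) :
    preM X Y l2 c0 (i0 + m) v ≤ preM X Y l2 c0 i0 u + best P f i0 m u v := by
  obtain ⟨r, hr, he⟩ := H140.best_route (f := f) F.edge i0 m u v
  rw [← he, F.sh]
  exact rcost_certM X Y _ i0 u v r m (fun i hi => (F.adm _ _).1 (hr i hi).2.2.2.2)
    fun i hi => hf _ _ _ (hr i hi)

/-- Certified value of a slab, any read set. -/
theorem cval_certM (F : Frame P l2 c0) (X Y : ℕ → ℕ) {vis : Leaf}
    (hvis : VisOK P vis (hidM X Y l2 c0)) (R : Finset (ℕ × ℕ)) (j i u v : ℕ) :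
    preM X Y l2 c0 ((i + 1) * P.M ^ j) v ≤ preM X Y l2 c0 (i * P.M ^ j) u +
      cval P vis (hidM X Y l2 c0) R j i u v := by
  have h := best_certM F X Y (known P vis (hidM X Y l2 c0) R) (i * P.M ^ j) (P.M ^ j) u v
    fun i p q hpq => le_known R (hvis i p q hpq)
  rwa [show i * P.M ^ j + P.M ^ j = (i + 1) * P.M ^ j by ring] at h

/-- End position of the root for two strings, `K` rows. -/
def pend (x y : List ℕ) (l2 c0 K : ℕ) : ℕ := H248.vend x y (K * (2 * l2)) + c0 - K * l2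

theorem vend_le {x y : List ℕ} {T : ℕ} (h : x.length + y.length ≤ T) : H248.vend x y T ≤ T := by
  unfold H248.vend; omega

theorem pend_cone {x y : List ℕ} {K : ℕ} (h : x.length + y.length ≤ K * (2 * l2))
    (hc : K * l2 ≤ c0) : InCone l2 c0 K (pend x y l2 c0 K) := by
  have h1 := vend_le h
  have e := two_mul_row (l2 := l2) K
  unfold InCone pend
  omega

theorem xi_pend {x y : List ℕ} {K : ℕ} (h : x.length + y.length ≤ K * (2 * l2))
    (hc : K * l2 ≤ c0) : xi l2 c0 K (pend x y l2 c0 K) = H248.vend x y (K * (2 * l2)) := by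
  have h1 := xi_of_cone (pend_cone h hc)
  have h2 := vend_le h
  unfold pend at h1 ⊢
  omega

/-- **Soundness.** The certified value of the root is at least `ED x y - 1`, for every read set and
all visible costs above the hidden ones. -/
theorem cval_cert_EDM (F : Frame P l2 c0) (x y : List ℕ) {vis : Leaf}
    (hvis : VisOK P vis (hidM (fun i => x.getD i 0) (fun i => y.getD i 0) l2 c0))
    (R : Finset (ℕ × ℕ)) (n : ℕ) (h : x.length + y.length ≤ P.M ^ n * (2 * l2))
    (hc : P.M ^ n * l2 ≤ c0) (u : ℕ) :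
    ED x y ≤ cval P vis (hidM (fun i => x.getD i 0) (fun i => y.getD i 0) l2 c0) R n 0 u
      (pend x y l2 c0 (P.M ^ n)) + 1 := by
  have h1 := cval_certM F (fun i => x.getD i 0) (fun i => y.getD i 0) hvis R n 0 u
    (pend x y l2 c0 (P.M ^ n))
  rw [Nat.zero_mul, preM_start, Nat.zero_add, Nat.zero_add, Nat.one_mul] at h1
  have h2 := (En_final x y _ h).1
  rw [ED_eq_lev]
  unfold preM at h1
  rw [xi_pend h hc] at h1
  simp only [En, Ed, Nat.sub_zero] at h2
  exact h2.trans (Nat.add_le_add_right h1 1)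

/-! ### Upper bound for the best mesh route -/

/-- The positions of a real path with first indices `a i` at the boundaries. -/
theorem best_le_pstar (F : Frame P l2 c0) {X Y : ℕ → ℕ} {K : ℕ} {a D : ℕ → ℕ}
    (hP : H248.PStar X Y (2 * l2) K a D) (hc : K * l2 ≤ c0) (hB : c0 + K * l2 ≤ P.B) {i0 m : ℕ}
    (hm : i0 + m ≤ K) :
    best P (hidM X Y l2 c0) i0 m (a i0 + c0 - i0 * l2) (a (i0 + m) + c0 - (i0 + m) * l2) ≤
      ∑ i ∈ range m, D (i0 + i) + m * (8 * P.μ + 2) := by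
  set A : ℕ → ℕ := fun i => a i + c0 - i * l2 with hA
  have hil : ∀ i, i ≤ K → i * l2 ≤ K * l2 := fun i hi => Nat.mul_le_mul_right l2 hi
  have key := H140.best_le_sum (P := P) (f := hidM X Y l2 c0) F.edge i0 m A
    (fun i => D i + (8 * P.μ + 2)) (fun i hi => ?_)
  · refine key.trans ?_
    rw [Finset.sum_add_distrib]
    simp
  · have hiK : i0 + i + 1 ≤ K := by omega
    set k := i0 + i with hk
    have h1 := hP.le_time k
    have h2 := hP.le_time (k + 1)
    have h3 := hP.mono k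
    have h4 := hP.step k
    have h5 := hil k (by omega)
    have h6 := hil (k + 1) hiK
    have e1 : (k + 1) * l2 = k * l2 + l2 := by ring
    have e2 := two_mul_row (l2 := l2) k
    have e3 := two_mul_row (l2 := l2) (k + 1)
    have hc1 : InCone l2 c0 k (A k) := by simp only [InCone, hA]; omega
    have hc2 : InCone l2 c0 (k + 1) (A (k + 1)) := by simp only [InCone, hA]; omega
    have hx1 : xi l2 c0 k (A k) = a k := by
      have := xi_of_cone hc1; simp only [hA] at this ⊢; omega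
    have hx2 : xi l2 c0 (k + 1) (A (k + 1)) = a (k + 1) := by
      have := xi_of_cone hc2; simp only [hA] at this ⊢; omega
    have ha1 : A k ≤ A (k + 1) + l2 := by simp only [hA]; omega
    have ha2 : A (k + 1) ≤ A k + l2 := by simp only [hA]; omega
    have hf1 : H140.flr P.μ (A k) ≤ H140.flr P.μ (A (k + 1)) + l2 :=
      (H140.flr_mono P.μ ha1).trans (H140.flr_add F.dvd_l2 _).le
    have hf2 : H140.flr P.μ (A (k + 1)) ≤ H140.flr P.μ (A k) + l2 :=
      (H140.flr_mono P.μ ha2).trans (H140.flr_add F.dvd_l2 _).le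
    have b1 := H140.flr_le P.μ (A k)
    have b2 := H140.lt_flr_add F.μ_pos (A k)
    have b3 := H140.flr_le P.μ (A (k + 1))
    have b4 := H140.lt_flr_add F.μ_pos (A (k + 1))
    have hAk : A k ≤ P.B := by have := hc1.2; omega
    have hAk' : A (k + 1) ≤ P.B := by have := hc2.2; omega
    refine ⟨H140.flr P.μ (A k), H140.flr P.μ (A (k + 1)), ⟨H140.dvd_flr _ _, H140.dvd_flr _ _,
      b1.trans hAk, b3.trans hAk', (F.adm _ _).2 ⟨hf1, hf2⟩⟩, ?_⟩
    have hrow := hP.row k (by omega) (xi l2 c0 k (H140.flr P.μ (A k)))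
      (xi l2 c0 (k + 1) (H140.flr P.μ (A (k + 1))))
    rw [← hidM_eq] at hrow
    have d1 := xi_dist (l2 := l2) (c0 := c0) k (H140.flr P.μ (A k)) (A k)
    have d2 := xi_dist (l2 := l2) (c0 := c0) (k + 1) (H140.flr P.μ (A (k + 1))) (A (k + 1))
    rw [hx1] at d1
    rw [hx2] at d2
    have d3 : Nat.dist (A k) (H140.flr P.μ (A k)) ≤ P.μ := by unfold Nat.dist; omega
    have d4 : Nat.dist (A (k + 1)) (H140.flr P.μ (A (k + 1))) ≤ P.μ := by unfold Nat.dist; omega
    rw [Nat.dist_comm (H140.flr P.μ (A k))] at d1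
    rw [Nat.dist_comm (H140.flr P.μ (A (k + 1)))] at d2 ⊢
    rw [F.sh]
    have d1' : Nat.dist (xi l2 c0 k (H140.flr P.μ (A k))) (a k) ≤ P.μ := d1.trans d3
    have d2' : Nat.dist (xi l2 c0 (k + 1) (H140.flr P.μ (A (k + 1)))) (a (k + 1)) ≤ P.μ :=
      d2.trans d4
    omega

/-- **The best mesh route costs at most `ED + 1 + K (8 μ + 2)`.** -/
theorem best_le_EDM (F : Frame P l2 c0) (x y : List ℕ) (K : ℕ)
    (h : x.length + y.length ≤ K * (2 * l2)) (hc : K * l2 ≤ c0) (hB : c0 + K * l2 ≤ P.B) :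
    best P (hidM (fun i => x.getD i 0) (fun i => y.getD i 0) l2 c0) 0 K c0
      (pend x y l2 c0 K) ≤ ED x y + 1 + K * (8 * P.μ + 2) := by
  obtain ⟨a, D, hP, ha, hD, -⟩ := H248.exists_pstar_strings x y (2 * l2) K h
  have h1 := best_le_pstar F hP hc hB (i0 := 0) (m := K) (by omega)
  simp only [Nat.zero_add, hP.zero, Nat.zero_mul, Nat.sub_zero, ha] at h1
  exact h1.trans (Nat.add_le_add_right hD _)

end Vale.Agent.P315.H54
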