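import Vale.Agent.P315.H54.PStarM

/-!
P315, row M2-WIN, part (C): in the moving frame the optimal mesh route can be chosen without
shifts, if its end is a mesh point of the cone. All its rows cost at most the length of a row.
-/

set_option autoImplicit false

namespace Vale.Agent.P315.H54

open Vale.Agent.P315 Vale.Agent.P315.C Finset

variable {P : Par} {l2 c0 : ℕ}

/-- There is a path without shifts from `c0` to the position `p` of the boundary `i`, of cost
`c`. -/
inductive SF (P : Par) (f : Leaf) (l2 c0 : ℕ) : ℕ → ℕ → ℕ → Prop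
  | zero : SF P f l2 c0 0 c0 0
  | succ {i o c p : ℕ} : SF P f l2 c0 i o c → H140.Ed P o p → InCone l2 c0 (i + 1) p →
      SF P f l2 c0 (i + 1) p (c + f i o p)

theorem SF.cone {f : Leaf} {i p c : ℕ} (h : SF P f l2 c0 i p c) : InCone l2 c0 i p := by
  cases h with
  | zero => unfold InCone; omega
  | succ _ _ h => exact h

theorem SF.le_B (F : Frame P l2 c0) {f : Leaf} {i p c : ℕ} (h : SF P f l2 c0 i p c) :
    p ≤ P.B := by
  cases h with
  | zero => exact F.le_B
  | succ _ h _ => exact h.2.2.2.1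

/-- The price of the end position is 2-Lipschitz. -/
theorem SF.lip (F : Frame P l2 c0) (X Y : ℕ → ℕ) {i p c : ℕ}
    (h : SF P (hidM X Y l2 c0) l2 c0 i p c) : ∀ p', P.μ ∣ p' → p' ≤ P.B → InCone l2 c0 i p' →
    ∃ c', SF P (hidM X Y l2 c0) l2 c0 i p' c' ∧ c' ≤ c + 2 * Nat.dist p p' := by
  induction h with
  | zero =>
    intro p' _ _ hc
    have : p' = c0 := by have := hc.1; have := hc.2; omega
    subst this
    exact ⟨0, SF.zero, Nat.zero_le _⟩
  | @succ i o c p h0 he hp ih =>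
    intro p' hd hB hc
    have ha := (F.adm _ _).1 he.2.2.2.2
    have ho := h0.cone
    have e1 : (i + 1) * l2 = i * l2 + l2 := by ring
    have hdo := he.1
    have hoB := he.2.2.1
    have hpc := hp
    have hf := two_dist_le_hidM X Y ha.1 ha.2 ho hp
    obtain ⟨ho1, ho2⟩ := ho
    obtain ⟨hc1, hc2⟩ := hc
    obtain ⟨hp1, hp2⟩ := hp
    rw [e1] at hc1 hc2 hp1 hp2
    rcases Nat.lt_or_ge (o + l2) p' with h1 | h1
    · -- `p'` too far right
      have hc' : InCone l2 c0 i (p' - l2) := by unfold InCone; omega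
      obtain ⟨c1, h2, h3⟩ := ih (p' - l2) (Nat.dvd_sub hd F.dvd_l2) (by omega) hc'
      have had : p' - l2 ≤ p' + l2 ∧ p' ≤ p' - l2 + l2 := by omega
      have h4 := hidM_le (c0 := c0) X Y (i := i) had.1 had.2
      refine ⟨_, SF.succ h2 ⟨Nat.dvd_sub hd F.dvd_l2, hd, by omega, hB,
        (F.adm _ _).2 had⟩ ⟨by rw [e1]; omega, by rw [e1]; omega⟩, ?_⟩
      unfold Nat.dist at hf h3 ⊢
      omega
    · rcases Nat.lt_or_ge (p' + l2) o with h1' | h1'
      · have hc' : InCone l2 c0 i (p' + l2) := by unfold InCone; omega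
        obtain ⟨c1, h2, h3⟩ := ih (p' + l2) (Nat.dvd_add hd F.dvd_l2) (by omega) hc'
        have had : p' + l2 ≤ p' + l2 ∧ p' ≤ p' + l2 + l2 := by omega
        have h4 := hidM_le (c0 := c0) X Y (i := i) had.1 had.2
        refine ⟨_, SF.succ h2 ⟨Nat.dvd_add hd F.dvd_l2, hd, by omega, hB,
          (F.adm _ _).2 had⟩ ⟨by rw [e1]; omega, by rw [e1]; omega⟩, ?_⟩
        unfold Nat.dist at hf h3 ⊢
        omega
      · -- same start
        have h4 := hidM_lip (l2 := l2) (c0 := c0) X Y i o p' o p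
        rw [Nat.dist_self, Nat.mul_zero, Nat.add_zero, Nat.dist_comm p' p] at h4
        exact ⟨_, SF.succ h0 ⟨hdo, hd, hoB, hB, (F.adm _ _).2 ⟨h1', h1⟩⟩
          ⟨by rw [e1]; omega, by rw [e1]; omega⟩, by omega⟩

/-- Every route in the cones can be replaced by a path without shifts. -/
theorem exists_SF_route (F : Frame P l2 c0) (X Y : ℕ → ℕ) (r : ℕ → ℕ × ℕ) (m : ℕ)
    (hr : P.RouteOK m (clr l2 c0 r)) :
    ∃ c, SF P (hidM X Y l2 c0) l2 c0 m (prevPos c0 (clr l2 c0 r) m) c ∧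
      c ≤ ∑ i ∈ range m, (2 * Nat.dist (prevPos c0 (clr l2 c0 r) i) (clr l2 c0 r i).1 +
        hidM X Y l2 c0 i (clr l2 c0 r i).1 (clr l2 c0 r i).2) := by
  induction m with
  | zero => exact ⟨0, SF.zero, Nat.zero_le _⟩
  | succ m ih =>
    obtain ⟨c, h1, h2⟩ := ih fun i hi => hr i (by omega)
    obtain ⟨g1, g2, g3, g4, g5⟩ := hr m (by omega)
    obtain ⟨c', h3, h4⟩ := h1.lip F X Y _ g1 g3 (clc_cone m _)
    refine ⟨c' + hidM X Y l2 c0 m (clr l2 c0 r m).1 (clr l2 c0 r m).2,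
      SF.succ h3 ⟨g1, g2, g3, g4, g5⟩ (clc_cone (m + 1) _), ?_⟩
    rw [Finset.sum_range_succ]
    omega

/-- The points of a path without shifts. -/
theorem SF.path {f : Leaf} {i p c : ℕ} (h : SF P f l2 c0 i p c) :
    ∃ z : ℕ → ℕ, z 0 = c0 ∧ z i = p ∧ (∀ k ≤ i, InCone l2 c0 k (z k)) ∧
      (∀ k < i, H140.Ed P (z k) (z (k + 1))) ∧ ∑ k ∈ range i, f k (z k) (z (k + 1)) = c := by
  induction h with
  | zero =>
    refine ⟨fun _ => c0, rfl, rfl, fun k _ => ?_, fun k hk => absurd hk (by omega), by simp⟩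
    exact ⟨Nat.le_add_right _ _, Nat.le_add_right _ _⟩
  | @succ i o c p h0 he hp ih =>
    obtain ⟨z, z0, zi, zc, ze, zs⟩ := ih
    obtain ⟨z', hz⟩ : ∃ z' : ℕ → ℕ, z' = fun k => if k ≤ i then z k else p := ⟨_, rfl⟩
    have hz1 : ∀ k, k ≤ i → z' k = z k := fun k hk => by rw [hz]; exact if_pos hk
    have hz2 : z' (i + 1) = p := by rw [hz]; exact if_neg (by omega)
    refine ⟨z', ?_, hz2, ?_, ?_, ?_⟩
    · rw [hz1 0 (Nat.zero_le _), z0]
    · intro k hk
      rcases Nat.lt_or_ge i k with h' | h'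
      · obtain rfl : k = i + 1 := by omega
        rw [hz2]; exact hp
      · rw [hz1 k h']; exact zc k h'
    · intro k hk
      rcases Nat.lt_or_ge k i with h' | h'
      · rw [hz1 k h'.le, hz1 (k + 1) h']; exact ze k h'
      · obtain rfl : k = i := by omega
        rw [hz1 k le_rfl, hz2, zi]; exact he
    · rw [Finset.sum_range_succ, hz1 i le_rfl, hz2, zi, ← zs]
      congr 1
      refine Finset.sum_congr rfl fun k hk => ?_
      have hk' := Finset.mem_range.1 hk
      rw [hz1 k hk'.le, hz1 (k + 1) hk']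

/-- Optimality in total implies optimality between any two boundaries. -/
theorem opt_of_total (F : Frame P l2 c0) {f : Leaf} {K u v : ℕ} {pos D : ℕ → ℕ}
    (h0 : pos 0 = u) (hK : pos K = v)
    (hrow : ∀ i < K, ∃ p q, H140.Ed P p q ∧
      P.sh * Nat.dist (pos i) p + f i p q + P.sh * Nat.dist q (pos (i + 1)) ≤ D i)
    (htot : ∑ i ∈ range K, D i ≤ best P f 0 K u v) {i m : ℕ} (him : i + m ≤ K) :
    best P f i m (pos i) (pos (i + m)) = ∑ k ∈ range m, D (i + k) := by
  have hup : ∀ i m, i + m ≤ K →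
      best P f i m (pos i) (pos (i + m)) ≤ ∑ k ∈ range m, D (i + k) := by
    intro i m him
    exact H140.best_le_sum F.edge i m pos D fun k hk => hrow (i + k) (by omega)
  refine le_antisymm (hup i m him) ?_
  have h1 := H140.best_add (P := P) (f := f) F.edge 0 i (K - i) (pos 0) (pos i) (pos K)
  have h2 := H140.best_add (P := P) (f := f) F.edge i m (K - i - m) (pos i) (pos (i + m)) (pos K)
  rw [show i + (K - i) = K by omega] at h1
  rw [show m + (K - i - m) = K - i by omega] at h2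
  have h3 := hup 0 i (by omega)
  have h4 := hup (i + m) (K - i - m) (by omega)
  rw [show i + m + (K - i - m) = K by omega] at h4
  simp only [Nat.zero_add] at h1 h3
  have hsplit : ∑ i ∈ range K, D i = ∑ k ∈ range i, D k + (∑ k ∈ range m, D (i + k) +
      ∑ k ∈ range (K - i - m), D (i + m + k)) := by
    conv_lhs => rw [show K = i + (m + (K - i - m)) by omega]
    rw [Finset.sum_range_add, Finset.sum_range_add]
    simp only [Nat.add_assoc]
  rw [h0, hK] at h1
  rw [hK] at h2 h4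
  rw [h0] at h3
  omega

/-- **The optimal mesh route without shifts.** -/
theorem exists_pstarF (F : Frame P l2 c0) (X Y : ℕ → ℕ) (K v : ℕ) (hv : InCone l2 c0 K v)
    (hd : P.μ ∣ v) (hB : v ≤ P.B) :
    ∃ pos D, PStarM P X Y l2 c0 K v pos (fun i => pos (i + 1)) D := by
  obtain ⟨r, hr, he⟩ := H140.best_route (f := hidM X Y l2 c0) F.edge 0 K c0 v
  simp only [Nat.zero_add, F.sh] at he
  have hr1 := routeOK_clr F hr
  have hle := rcost_clr X Y K v r hv
  obtain ⟨c, h1, h2⟩ := exists_SF_route F X Y r K hr1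
  obtain ⟨c', h3, h4⟩ := h1.lip F X Y v hd hB hv
  obtain ⟨z, z0, zK, zc, ze, zs⟩ := h3.path
  have htot : ∑ i ∈ range K, hidM X Y l2 c0 i (z i) (z (i + 1)) ≤
      best P (hidM X Y l2 c0) 0 K c0 v := by
    rw [zs, ← he]
    refine le_trans ?_ hle
    unfold rcost
    omega
  refine ⟨z, fun i => hidM X Y l2 c0 i (z i) (z (i + 1)), z0, zK, zc, fun i hi => zc (i + 1) hi,
    ze, fun i _ => by simp [Nat.dist_self], fun i m him => ?_⟩
  exact opt_of_total F z0 zK (fun i hi => ⟨_, _, ze i hi, by simp [Nat.dist_self]⟩) htot him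

/-- Without shifts every row costs at most its length. -/
theorem PStarM.D_le {X Y : ℕ → ℕ} {K v : ℕ} {pos D : ℕ → ℕ}
    (h : PStarM P X Y l2 c0 K v pos (fun i => pos (i + 1)) D) (F : Frame P l2 c0) {i : ℕ}
    (hi : i < K) : D i = hidM X Y l2 c0 i (pos i) (pos (i + 1)) ∧ D i ≤ 2 * l2 := by
  have h1 := h.cost i hi
  have h2 := h.adm F hi
  have h3 := hidM_le (c0 := c0) X Y (i := i) h2.1 h2.2
  simp only [Nat.dist_self, Nat.mul_zero, Nat.add_zero] at h1
  exact ⟨h1, h1.trans_le h3⟩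

/-! ### Mesh end of the root -/

/-- End position rounded down to the mesh. -/
def pendF (x y : List ℕ) (μ l2 c0 K : ℕ) : ℕ := H140.flr μ (pend x y l2 c0 K)

theorem pendF_cone (F : Frame P l2 c0) {x y : List ℕ} {K : ℕ}
    (h : x.length + y.length ≤ K * (2 * l2)) (hc : K * l2 ≤ c0) :
    InCone l2 c0 K (pendF x y P.μ l2 c0 K) := by
  have h1 := pend_cone h hc
  have h2 : P.μ ∣ c0 - K * l2 := Nat.dvd_sub F.dvd_c0 (F.dvd_l2.mul_left K)
  obtain ⟨k, hk⟩ := h2
  have h3 : c0 - K * l2 ≤ pend x y l2 c0 K := by have := h1.1; omega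
  have h4 : H140.flr P.μ (c0 - K * l2) = c0 - K * l2 := by
    unfold H140.flr
    exact Nat.div_mul_cancel (Nat.dvd_sub F.dvd_c0 (F.dvd_l2.mul_left K))
  have h5 := H140.flr_mono P.μ h3
  have h6 := H140.flr_le P.μ (pend x y l2 c0 K)
  have := h1.2
  unfold InCone pendF
  omega

theorem pendF_dist (F : Frame P l2 c0) (x y : List ℕ) (K : ℕ) :
    Nat.dist (pend x y l2 c0 K) (pendF x y P.μ l2 c0 K) ≤ P.μ := by
  have h1 := H140.flr_le P.μ (pend x y l2 c0 K)
  have h2 := H140.lt_flr_add F.μ_pos (pend x y l2 c0 K)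
  unfold pendF Nat.dist
  omega

/-- **Soundness with the mesh end.** -/
theorem cval_cert_EDF (F : Frame P l2 c0) (x y : List ℕ) {vis : Leaf}
    (hvis : VisOK P vis (hidM (fun i => x.getD i 0) (fun i => y.getD i 0) l2 c0))
    (R : Finset (ℕ × ℕ)) (n : ℕ) (h : x.length + y.length ≤ P.M ^ n * (2 * l2))
    (hc : P.M ^ n * l2 ≤ c0) (u : ℕ) :
    ED x y ≤ cval P vis (hidM (fun i => x.getD i 0) (fun i => y.getD i 0) l2 c0) R n 0 u
      (pendF x y P.μ l2 c0 (P.M ^ n)) + (2 * P.μ + 1) := by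
  have h1 := cval_cert_EDM F x y hvis R n h hc u
  have h2 : cval P vis (hidM (fun i => x.getD i 0) (fun i => y.getD i 0) l2 c0) R n 0 u
      (pend x y l2 c0 (P.M ^ n)) ≤
      cval P vis (hidM (fun i => x.getD i 0) (fun i => y.getD i 0) l2 c0) R n 0 u
      (pendF x y P.μ l2 c0 (P.M ^ n)) +
      P.sh * Nat.dist (pendF x y P.μ l2 c0 (P.M ^ n)) (pend x y l2 c0 (P.M ^ n)) :=
    H140.best_lip_right F.edge _ _ _ _ _
  have h3 := pendF_dist F x y (P.M ^ n)
  rw [Nat.dist_comm, F.sh] at h2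
  omega

/-- **The shift-free route for two strings.** -/
theorem exists_pstarF_strings (F : Frame P l2 c0) (x y : List ℕ) (K : ℕ)
    (h : x.length + y.length ≤ K * (2 * l2)) (hc : K * l2 ≤ c0) (hB : c0 + K * l2 ≤ P.B) :
    ∃ pos D, PStarM P (fun i => x.getD i 0) (fun i => y.getD i 0) l2 c0 K
      (pendF x y P.μ l2 c0 K) pos (fun i => pos (i + 1)) D ∧
      ∑ i ∈ range K, D i ≤ ED x y + 1 + K * (8 * P.μ + 2) + 2 * P.μ ∧
      ED x y ≤ ∑ i ∈ range K, D i + (2 * P.μ + 1) := by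
  have hcone := pendF_cone F h hc
  obtain ⟨pos, D, hP⟩ := exists_pstarF F (fun i => x.getD i 0) (fun i => y.getD i 0) K
    (pendF x y P.μ l2 c0 K) hcone (H140.dvd_flr _ _) (by have := hcone.2; omega)
  have h3 := pendF_dist F x y K
  refine ⟨pos, D, hP, ?_, ?_⟩
  · rw [hP.sum_eq]
    have h1 := best_le_EDM F x y K h hc hB
    have h2 := H140.best_lip_right (f := hidM (fun i => x.getD i 0) (fun i => y.getD i 0) l2 c0)
      F.edge 0 K c0 (pend x y l2 c0 K) (pendF x y P.μ l2 c0 K)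
    rw [F.sh] at h2
    omega
  · rw [hP.sum_eq]
    have h1 := best_certM F (fun i => x.getD i 0) (fun i => y.getD i 0)
      (hidM (fun i => x.getD i 0) (fun i => y.getD i 0) l2 c0) 0 K c0 (pend x y l2 c0 K)
      fun _ _ _ _ => le_rfl
    rw [preM_start, Nat.zero_add, Nat.zero_add] at h1
    have h2 := (En_final x y _ h).1
    have h4 := H140.best_lip_right (f := hidM (fun i => x.getD i 0) (fun i => y.getD i 0) l2 c0)
      F.edge 0 K c0 (pendF x y P.μ l2 c0 K) (pend x y l2 c0 K)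
    rw [F.sh, Nat.dist_comm] at h4
    rw [ED_eq_lev]
    unfold preM at h1
    rw [xi_pend h hc] at h1
    simp only [En, Ed, Nat.sub_zero] at h2
    have h5 := h2.trans (Nat.add_le_add_right h1 1)
    omega

end Vale.Agent.P315.H54
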