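import Vale.Agent.P315.Seg

/-! Optimal alignment paths parametrised by antidiagonal time (P315, string side of the geometry).

`exists_path`: for two lists `x`, `y` there are monotone break points `a t`, `b t` with
`a t + b t = t` or `t + 1` (a diagonal step may jump over one antidiagonal) and a cumulative cost `w`
such that for all `t ≤ t'` the edit distance of the factors `x[a t, a t')`, `y[b t, b t')` is exactly
`w t' - w t`. -/

set_option autoImplicit false

namespace Vale.Agent.P315.H54

open Vale.Agent.P315

/-- The path data of a script. -/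
structure PathData (xs ys : List ℕ) (c : ℕ) (a b w : ℕ → ℕ) : Prop where
  a0 : a 0 = 0
  b0 : b 0 = 0
  w0 : w 0 = 0
  ma : Monotone a
  mb : Monotone b
  mw : Monotone w
  la : ∀ t, a (t + 1) ≤ a t + 1
  lb : ∀ t, b (t + 1) ≤ b t + 1
  time : ∀ t, t ≤ xs.length + ys.length → a t + b t = t ∨ a t + b t = t + 1
  ae : ∀ t, xs.length + ys.length ≤ t → a t = xs.length
  be : ∀ t, xs.length + ys.length ≤ t → b t = ys.length
  we : ∀ t, xs.length + ys.length ≤ t → w t = c
  script : ∀ t t', t ≤ t' → Script (factor xs (a t) (a t')) (factor ys (b t) (b t')) (w t' - w t)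

theorem factor_zero (x : ℕ) (xs : List ℕ) (q : ℕ) :
    factor (x :: xs) 0 (q + 1) = x :: factor xs 0 q := by
  simp [factor]

theorem factor_succ (x : ℕ) (xs : List ℕ) (p q : ℕ) :
    factor (x :: xs) (p + 1) (q + 1) = factor xs p q := by
  simp [factor]

theorem factor_self (xs : List ℕ) (p : ℕ) : factor xs p p = [] := by
  simp [factor]


/-- Prepending one move. -/
def shf (d k : ℕ) (f : ℕ → ℕ) : ℕ → ℕ := fun t => if t = 0 then 0 else f (t - d) + k

theorem shf_zero (d k : ℕ) (f : ℕ → ℕ) : shf d k f 0 = 0 := by simp [shf]

theorem shf_pos (d k : ℕ) (f : ℕ → ℕ) {t : ℕ} (h : 0 < t) : shf d k f t = f (t - d) + k := by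
  simp [shf, h.ne']

theorem shf_mono (d k : ℕ) {f : ℕ → ℕ} (hf : Monotone f) : Monotone (shf d k f) := by
  intro s t hst
  rcases Nat.eq_zero_or_pos s with h | h
  · subst h; rw [shf_zero]; exact Nat.zero_le _
  · rw [shf_pos d k f h, shf_pos d k f (lt_of_lt_of_le h hst)]
    exact Nat.add_le_add_right (hf (Nat.sub_le_sub_right hst d)) k

theorem shf_lip (d k : ℕ) {f : ℕ → ℕ} (h0 : f 0 = 0) (hk : k ≤ 1) (hd : 1 ≤ d)
    (hf : ∀ t, f (t + 1) ≤ f t + 1) (t : ℕ) : shf d k f (t + 1) ≤ shf d k f t + 1 := by
  rw [shf_pos d k f (Nat.succ_pos t)]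
  rcases Nat.eq_zero_or_pos t with h | h
  · subst h
    rw [shf_zero, show 0 + 1 - d = 0 by omega, h0]; omega
  · rw [shf_pos d k f h]
    rcases Nat.lt_or_ge t d with h1 | h1
    · rw [show t + 1 - d = 0 by omega, show t - d = 0 by omega]; omega
    · rw [show t + 1 - d = t - d + 1 by omega]
      have := hf (t - d)
      omega

theorem exists_pathData {xs ys : List ℕ} {c : ℕ} (h : Script xs ys c) :
    ∃ a b w : ℕ → ℕ, PathData xs ys c a b w := by
  induction h with
  | nil =>
    refine ⟨fun _ => 0, fun _ => 0, fun _ => 0, rfl, rfl, rfl, monotone_const, monotone_const,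
      monotone_const, fun _ => Nat.zero_le _, fun _ => Nat.zero_le _, ?_, ?_, ?_, ?_, ?_⟩
    · intro t ht; simp at ht; subst ht; left; rfl
    · intro t _; rfl
    · intro t _; rfl
    · intro t _; rfl
    · intro t t' _; simpa [factor] using Script.nil
  | @del xs ys c x h ih =>
    obtain ⟨a, b, w, P⟩ := ih
    refine ⟨shf 1 1 a, shf 1 0 b, shf 1 1 w, shf_zero _ _ _, shf_zero _ _ _, shf_zero _ _ _,
      shf_mono _ _ P.ma, shf_mono _ _ P.mb, shf_mono _ _ P.mw,
      shf_lip _ _ P.a0 (by norm_num) (by norm_num) P.la,
      shf_lip _ _ P.b0 (by norm_num) (by norm_num) P.lb, ?_, ?_, ?_, ?_, ?_⟩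
    · intro t ht
      rcases Nat.eq_zero_or_pos t with h0 | h0
      · subst h0; left; simp [shf_zero]
      · rw [shf_pos _ _ _ h0, shf_pos _ _ _ h0]
        simp only [List.length_cons] at ht
        rcases P.time (t - 1) (by omega) with h | h <;> omega
    · intro t ht
      simp only [List.length_cons] at ht ⊢
      rw [shf_pos _ _ _ (by omega), P.ae (t - 1) (by omega)]
    · intro t ht
      simp only [List.length_cons] at ht
      rw [shf_pos _ _ _ (by omega), P.be (t - 1) (by omega), Nat.add_zero]
    · intro t ht
      simp only [List.length_cons] at ht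
      rw [shf_pos _ _ _ (by omega), P.we (t - 1) (by omega)]
    · intro t t' htt
      rcases Nat.eq_zero_or_pos t' with h0' | h0'
      · have h0 : t = 0 := by omega
        subst h0; subst h0'
        simpa [shf_zero, factor_self] using Script.nil
      · rcases Nat.eq_zero_or_pos t with h0 | h0
        · subst h0
          have := P.script 0 (t' - 1) (Nat.zero_le _)
          rw [P.a0, P.b0, P.w0] at this
          rw [shf_zero, shf_zero, shf_zero, shf_pos _ _ _ h0', shf_pos _ _ _ h0',
            shf_pos _ _ _ h0', factor_zero]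
          exact Script.del x this
        · have := P.script (t - 1) (t' - 1) (by omega)
          rw [shf_pos _ _ _ h0, shf_pos _ _ _ h0, shf_pos _ _ _ h0, shf_pos _ _ _ h0',
            shf_pos _ _ _ h0', shf_pos _ _ _ h0', factor_succ]
          simpa using this
  | @ins xs ys c y h ih =>
    obtain ⟨a, b, w, P⟩ := ih
    refine ⟨shf 1 0 a, shf 1 1 b, shf 1 1 w, shf_zero _ _ _, shf_zero _ _ _, shf_zero _ _ _,
      shf_mono _ _ P.ma, shf_mono _ _ P.mb, shf_mono _ _ P.mw,
      shf_lip _ _ P.a0 (by norm_num) (by norm_num) P.la,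
      shf_lip _ _ P.b0 (by norm_num) (by norm_num) P.lb, ?_, ?_, ?_, ?_, ?_⟩
    · intro t ht
      rcases Nat.eq_zero_or_pos t with h0 | h0
      · subst h0; left; simp [shf_zero]
      · rw [shf_pos _ _ _ h0, shf_pos _ _ _ h0]
        simp only [List.length_cons] at ht
        rcases P.time (t - 1) (by omega) with h | h <;> omega
    · intro t ht
      simp only [List.length_cons] at ht
      rw [shf_pos _ _ _ (by omega), P.ae (t - 1) (by omega), Nat.add_zero]
    · intro t ht
      simp only [List.length_cons] at ht ⊢
      rw [shf_pos _ _ _ (by omega), P.be (t - 1) (by omega)]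
    · intro t ht
      simp only [List.length_cons] at ht
      rw [shf_pos _ _ _ (by omega), P.we (t - 1) (by omega)]
    · intro t t' htt
      rcases Nat.eq_zero_or_pos t' with h0' | h0'
      · have h0 : t = 0 := by omega
        subst h0; subst h0'
        simpa [shf_zero, factor_self] using Script.nil
      · rcases Nat.eq_zero_or_pos t with h0 | h0
        · subst h0
          have := P.script 0 (t' - 1) (Nat.zero_le _)
          rw [P.a0, P.b0, P.w0] at this
          rw [shf_zero, shf_zero, shf_zero, shf_pos _ _ _ h0', shf_pos _ _ _ h0',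
            shf_pos _ _ _ h0', factor_zero]
          exact Script.ins y this
        · have := P.script (t - 1) (t' - 1) (by omega)
          rw [shf_pos _ _ _ h0, shf_pos _ _ _ h0, shf_pos _ _ _ h0, shf_pos _ _ _ h0',
            shf_pos _ _ _ h0', shf_pos _ _ _ h0', factor_succ]
          simpa using this
  | @sub xs ys c x y h ih =>
    obtain ⟨a, b, w, P⟩ := ih
    refine ⟨shf 2 1 a, shf 2 1 b, shf 2 (if x = y then 0 else 1) w, shf_zero _ _ _,
      shf_zero _ _ _, shf_zero _ _ _, shf_mono _ _ P.ma, shf_mono _ _ P.mb, shf_mono _ _ P.mw,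
      shf_lip _ _ P.a0 (by norm_num) (by norm_num) P.la,
      shf_lip _ _ P.b0 (by norm_num) (by norm_num) P.lb, ?_, ?_, ?_, ?_, ?_⟩
    · intro t ht
      rcases Nat.eq_zero_or_pos t with h0 | h0
      · subst h0; left; simp [shf_zero]
      · rw [shf_pos _ _ _ h0, shf_pos _ _ _ h0]
        simp only [List.length_cons] at ht
        rcases Nat.lt_or_ge t 2 with h2 | h2
        · have h1 : t = 1 := by omega
          subst h1
          right
          rw [show (1 : ℕ) - 2 = 0 from rfl, P.a0, P.b0]
        · rcases P.time (t - 2) (by omega) with h | h <;> omega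
    · intro t ht
      simp only [List.length_cons] at ht ⊢
      rw [shf_pos _ _ _ (by omega), P.ae (t - 2) (by omega)]
    · intro t ht
      simp only [List.length_cons] at ht ⊢
      rw [shf_pos _ _ _ (by omega), P.be (t - 2) (by omega)]
    · intro t ht
      simp only [List.length_cons] at ht
      rw [shf_pos _ _ _ (by omega), P.we (t - 2) (by omega)]
    · intro t t' htt
      rcases Nat.eq_zero_or_pos t' with h0' | h0'
      · have h0 : t = 0 := by omega
        subst h0; subst h0'
        simpa [shf_zero, factor_self] using Script.nil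
      · rcases Nat.eq_zero_or_pos t with h0 | h0
        · subst h0
          have := P.script 0 (t' - 2) (Nat.zero_le _)
          rw [P.a0, P.b0, P.w0] at this
          rw [shf_zero, shf_zero, shf_zero, shf_pos _ _ _ h0', shf_pos _ _ _ h0',
            shf_pos _ _ _ h0', factor_zero, factor_zero]
          exact Script.sub x y this
        · have := P.script (t - 2) (t' - 2) (by omega)
          rw [shf_pos _ _ _ h0, shf_pos _ _ _ h0, shf_pos _ _ _ h0, shf_pos _ _ _ h0',
            shf_pos _ _ _ h0', shf_pos _ _ _ h0', factor_succ, factor_succ,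
            Nat.add_sub_add_right]
          exact this

/-- The optimal path of two lists, parametrised by antidiagonal time. -/
theorem exists_path (x y : List ℕ) : ∃ a b w : ℕ → ℕ, PathData x y (lev x y) a b w :=
  exists_pathData (script_lev x y)

theorem factor_append (x : List ℕ) {p q r : ℕ} (h : p ≤ q) (h' : q ≤ r) :
    factor x p r = factor x p q ++ factor x q r := by
  unfold factor
  rw [show r - p = (q - p) + (r - q) by omega, List.take_add, List.drop_drop,
    show p + (q - p) = q by omega]

/-- Along the optimal path every factor is optimally aligned. -/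
theorem PathData.lev_eq {x y : List ℕ} {a b w : ℕ → ℕ} (P : PathData x y (lev x y) a b w)
    {t t' : ℕ} (h : t ≤ t') :
    w t + lev (factor x (a t) (a t')) (factor y (b t) (b t')) = w t' := by
  have h1 := (P.script t t' h).lev_le
  have hw := P.mw h
  apply le_antisymm (by omega)
  -- the total
  set n := max t' (x.length + y.length) with hn
  have hn1 : t' ≤ n := le_max_left _ _
  have hn2 : x.length + y.length ≤ n := le_max_right _ _
  have e1 := (P.script 0 t (Nat.zero_le _)).lev_le
  have e2 := (P.script t' n hn1).lev_le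
  have hwn := P.mw hn1
  rw [P.we n hn2] at e2 hwn
  rw [P.w0, Nat.sub_zero] at e1
  have hx : x = factor x 0 (a t) ++ (factor x (a t) (a t') ++ factor x (a t') (a n)) := by
    rw [← factor_append x (P.ma h) (P.ma hn1), ← factor_append x (Nat.zero_le _)
      (P.ma (h.trans hn1)), P.ae n hn2]
    simp [factor]
  have hy : y = factor y 0 (b t) ++ (factor y (b t) (b t') ++ factor y (b t') (b n)) := by
    rw [← factor_append y (P.mb h) (P.mb hn1), ← factor_append y (Nat.zero_le _)
      (P.mb (h.trans hn1)), P.be n hn2]
    simp [factor]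
  have h3 : lev x y ≤ lev (factor x 0 (a t)) (factor y 0 (b t)) +
      (lev (factor x (a t) (a t')) (factor y (b t) (b t')) +
        lev (factor x (a t') (a n)) (factor y (b t') (b n))) := by
    calc lev x y = lev (factor x 0 (a t) ++ (factor x (a t) (a t') ++ factor x (a t') (a n)))
          (factor y 0 (b t) ++ (factor y (b t) (b t') ++ factor y (b t') (b n))) := by
            rw [← hx, ← hy]
      _ ≤ _ := (lev_append_le _ _ _ _).trans (Nat.add_le_add_left (lev_append_le _ _ _ _) _)
  rw [P.a0, P.b0] at e1
  omega

end Vale.Agent.P315.H54
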