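import Vale.Agent.P315.H54.GoodCst
import Vale.Agent.P315.H207.M2Grid
import Vale.Agent.P315.H731.VisFeed
import Vale.Agent.P315.H608.Time2

/-!
P315, milestone 2, T-TOP: **the counting hypothesis of `main_solves2`** for the parameters `mulF`
and the strategy `m2Strat`.
-/

set_option autoImplicit false

namespace Vale.Agent.P315.H54

open Vale.Agent.P315 Vale.Agent.P315.C Vale.Agent.P315.H95 Finset
open Vale.Agent.P315.H846 (StmtQT2)
open Vale.Agent.P315.H659 (nSeed rndOf arrOf)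
open Vale.Agent.P315.H155 (fam2)
open Vale.Agent.P315.H608 (Cst2)
open Vale.Agent.P315.H873 Vale.Agent.P315.H933 Vale.Agent.P315.H486
open Vale.Agent.P315.RAM (len2)
open Vale.Agent.P315.H155 (m2Strat)
open Vale.Agent.P315.H207.M2 (FitM exists_fitM fin_mulF rounds_le rndF fvis fam2M)

/-- **At least two thirds of the seeds are good**: the last hypothesis of `main_solves2`. -/
theorem count_mulF (hQT : StmtQT2 fam2) {ε : ℝ} (hε : 0 < ε) :
    ∃ m k cd D1 e₀ E₁ h C0 Ak : ℕ, 1 ≤ m ∧ 1 ≤ E₁ ∧ 1 ≤ h ∧ 1 ≤ C0 ∧ 1 ≤ Ak ∧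
      ∀ c : Cst2, CstFit c m k e₀ E₁ h C0 Ak → ∀ q : ℕ, 3 ≤ q → ∃ N0 : ℕ,
      ∀ N₁, N0 ≤ N₁ → ∀ (cb : ℕ) (x y : List ℕ),
        2 * Nat.card (Fin ((mulF c q cb N₁).N (len2 x y) + (mulF c q cb N₁).NS (len2 x y)) →
            Fin ((mulF c q cb N₁).e (len2 x y))) ≤
          3 * Nat.card {cc : Fin ((mulF c q cb N₁).N (len2 x y) +
              (mulF c q cb N₁).NS (len2 x y)) → Fin ((mulF c q cb N₁).e (len2 x y)) //
            ED x y ≤ (mulF c q cb N₁).fin (m2Strat m k cd D1) x y (visG (GF c q) x y)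
                (ofFin cc) ∧
              (((mulF c q cb N₁).fin (m2Strat m k cd D1) x y (visG (GF c q) x y)
                (ofFin cc) : ℕ) : ℝ) ≤ (1 + ε) * ED x y} := by
  obtain ⟨m, k, cd, D1, e₀, E₁, h, C0, A0, hm, hE₁, hh, hC0, hA0, hmain⟩ :=
    good_of_cst hQT hε
  refine ⟨m, k, cd, D1, e₀, E₁, h, C0, max A0 2, hm, hE₁, hh, hC0, le_max_of_le_left hA0,
    fun c hc q hq => ?_⟩
  have hc' : CstFit c m k e₀ E₁ h C0 A0 :=
    ⟨hc.hB, hc.hbm, hc.hc2, hc.he₀, hc.he₁, (le_max_left _ _).trans hc.hak, hc.hh, hc.hC0, hc.hC1,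
      hc.hkc, hc.hmt, hc.hms⟩
  obtain ⟨N0, hN0⟩ := hmain c hc' q hq
  obtain ⟨g₁, hg₁⟩ := exists_fitM c hm hc.hbm k ((le_max_right _ _).trans hc.hak)
  obtain ⟨N0', hN0'⟩ := Cst2.le_G (c := c) (q := q) (by omega) g₁
  refine ⟨max N0 N0', fun N₁ hN₁ cb x y => ?_⟩
  refine hN0 N₁ ((le_max_left _ _).trans hN₁) x y (sl (len2 x y)) (gp c q (len2 x y))
    ((GF c q).nSd (len2 x y)) ((GF c q).q (len2 x y)) (fam2M c m k cd D1 q (len2 x y))
    rfl rfl rfl rfl le_rfl
    (fun cc => (mulF c q cb N₁).fin (m2Strat m k cd D1) x y (visG (GF c q) x y) (ofFin cc))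
    ?_ ?_
  · intro h1 cc
    show (mulF c q cb N₁).fin (m2Strat m k cd D1) x y (visG (GF c q) x y) (ofFin cc) = ED x y
    rw [MulF.fin_eq]
    exact if_pos h1
  · intro h1 cc
    have hge : N₁ ≤ sl (len2 x y) := by
      by_contra hlt
      have h2 : c.kb N₁ (sl (len2 x y)) (gp c q (len2 x y)) = sl (len2 x y) :=
        Cst2.kb_of_lt (by omega)
      have h3 : ED x y ≤ x.length + y.length := ED_le_add x y
      have h4 : sl (len2 x y) = x.length + y.length := rfl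
      omega
    have hg : g₁ ≤ gp c q (len2 x y) := by
      have := hN0' (sl (len2 x y)) ((le_max_right _ _).trans (hN₁.trans hge))
      exact this
    have hlen : (visG (GF c q) x y (MulF.sdL ((mulF c q cb N₁).N (len2 x y))
        ((mulF c q cb N₁).NS (len2 x y)) (arrOf cc))).length = (mulF c q cb N₁).NV (len2 x y) := by
      rw [length_visG, mulF_NV]
    have hF := hg₁ q cb N₁ (len2 x y) hg (visG (GF c q) x y) (arrOf cc) hlen
    have hK : (2 ^ (20 * m)) ^ c.L (gp c q (len2 x y)) ≤ c.K (gp c q (len2 x y)) := by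
      rw [Cst2.K_eq', hc.hbm]
    have hvis := H731.agree_fd c q cb N₁ x y (m := m) (w0 := c.w0 (sl (len2 x y))
      (gp c q (len2 x y))) (J := 2 ^ k - 1) (S := c.S (gp c q (len2 x y)))
      (H := famH m (c.L (gp c q (len2 x y))) (c.S (gp c q (len2 x y))))
      (Kc := c.Kc (gp c q (len2 x y))) (D1 := D1) hK cc
    obtain ⟨R, hR1, hR2⟩ := fin_mulF (cd := cd) (D1 := D1) c hc.hbm q cb N₁ x y hF
      (vis := visC ((GF c q).q (len2 x y)) x y (c.ℓh (sl (len2 x y)) (gp c q (len2 x y)))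
        (c.c0 (sl (len2 x y)) (gp c q (len2 x y))) cc (c.Nu2 (gp c q (len2 x y))))
      hvis ((mulF c q cb N₁).Q (len2 x y))
    have hrnd : rndF m k (c.L (gp c q (len2 x y))) (c.S (gp c q (len2 x y)))
        (c.ℓ2 (sl (len2 x y)) (gp c q (len2 x y)))
        ((mulF c q cb N₁).feed (visG (GF c q) x y) (len2 x y) (arrOf cc)) = _ :=
      H731.rndF_fd c q cb N₁ x y (arrOf cc)
        (H731.nSeed_le_Nu2 c hc.hbm hc.hms (gp c q (len2 x y)))
        (c.ℓ2 (sl (len2 x y)) (gp c q (len2 x y)))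
    rw [hrnd] at hR2
    refine ⟨R, ?_, ?_⟩
    · show (mulF c q cb N₁).fin (m2Strat m k cd D1) x y (visG (GF c q) x y) (ofFin cc) = _
      have h2 : ¬ ED x y ≤ (mulF c q cb N₁).kb (len2 x y) := not_le.mpr h1
      rw [MulF.fin_eq, if_neg h2]
      rw [Cst2.ℓ2_div_two] at hR1
      exact hR1
    · intro h2
      rw [Cst2.ℓ2_div_two] at hR2
      exact hR2 (rounds_le h2)

end Vale.Agent.P315.H54
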