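import Vale.Agent.P315.H54.GoodMul
import Vale.Agent.P315.H608.Cst2
import Vale.Agent.P315.H155.Fam2

/-!
P315, milestone 2, T-TOP: `good_of_QT2` over the parameters `H608.Cst2` and the family `fam2`.
-/

set_option autoImplicit false

namespace Vale.Agent.P315.H54

open Vale.Agent.P315 Vale.Agent.P315.C Vale.Agent.P315.H95 Finset
open Vale.Agent.P315.H846 (StmtQT2)
open Vale.Agent.P315.H659 (nSeed rndOf arrOf)
open Vale.Agent.P315.H155 (fam2)
open Vale.Agent.P315.H608 (Cst2)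

theorem famCls_fam2 : FamCls fam2 where
  P_eq := fun m _ _ _ n S _ _ _ _ _ _ => ⟨C.famH m n S, rfl⟩
  n_eq := fun _ _ _ _ _ _ _ _ _ _ _ _ => rfl
  q_pos := fun _ _ _ _ _ _ _ _ _ _ _ _ => H155.fam2_q_pos

/-- The distance is at most the total length. -/
theorem ED_le_add (x y : List ℕ) : ED x y ≤ x.length + y.length := by
  rw [ED_eq_dist]
  exact dist_le _ _ 0 x.length 0 y.length

/-- The constants of the parameters fit the constants of the query theorem. -/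
structure CstFit (c : Cst2) (m k e₀ E₁ h C0 Ak : ℕ) : Prop where
  hB : c.B = 2 ^ m
  hbm : c.bm = 20 * m
  hc2 : c.c2 = 4
  he₀ : c.e₀ = e₀
  he₁ : E₁ ≤ c.e₁
  hak : Ak ≤ c.ak
  hh : c.h = h
  hC0 : C0 ≤ c.C0
  hC1 : 1 ≤ c.C1
  hkc : c.kc = k
  hmt : c.mt = 270 * m
  hms : c.ms = 4 * m

/-- **Two thirds of the seeds are good** (milestone 2), for the parameters `c : Cst2` and the family
`fam2`; `N` = length, `g` = number of levels before rounding, `N₁` = length up to which the band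
covers everything. The seeds of the query algorithm are the first words of `cc`, the seeds of
`START` (parameters `se`, `lam`, `kap`) the words from `Nu2` on. -/
theorem good_of_cst (hQT : StmtQT2 fam2) {ε : ℝ} (hε : 0 < ε) :
    ∃ m k cd D1 e₀ E₁ h C0 Ak : ℕ, 1 ≤ m ∧ 1 ≤ E₁ ∧ 1 ≤ h ∧ 1 ≤ C0 ∧ 1 ≤ Ak ∧
      ∀ c : Cst2, CstFit c m k e₀ E₁ h C0 Ak → ∀ q : ℕ, 3 ≤ q → ∃ N0 : ℕ,
      ∀ N₁, N0 ≤ N₁ → ∀ (x y : List ℕ) (N g NS : ℕ) (sp : H36.SP) (F : QPar),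
        N = x.length + y.length → g = H809.lev0 c.M q N →
        sp = ⟨c.se N g, c.lam g, c.kap g⟩ →
        F = fam2 m k cd D1 (c.L g) (c.S g) (c.ℓ2 N g) (c.μ2 N g) (c.B2 N g) (c.w0 N g) (c.Kc g)
          (c.Kc g) →
        sp.s + sp.R ≤ NS →
        ∀ out : (Fin (c.Nu2 g + NS) → Fin (c.md N g)) → ℕ,
        (ED x y ≤ c.kb N₁ N g → ∀ cc, out cc = ED x y) →
        (c.kb N₁ N g < ED x y → ∀ cc, ∃ R : Finset (ℕ × ℕ),
          out cc = cval F.P (visC sp x y (c.ℓh N g) (c.c0 N g) cc (c.Nu2 g))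
            (hidC x y (c.ℓh N g) (c.c0 N g)) R (c.L g) 0 (c.c0 N g)
            (pendF x y (c.μ2 N g) (c.ℓh N g) (c.c0 N g) (c.K g)) + (2 * c.μ2 N g + 1) ∧
          ((rd F.P F.mc (rndOf (c.L g) (2 ^ (20 * m)) (c.S g + 1) F.Cn (2 ^ k - 1)
                (fun i => arrOf cc i % F.q))
              (visC sp x y (c.ℓh N g) (c.c0 N g) cc (c.Nu2 g))
              (hidC x y (c.ℓh N g) (c.c0 N g)) (c.L g) 0 (enc (c.Kc g) 0 0) F.N).card ≤ c.Q g →
            R = rd F.P F.mc (rndOf (c.L g) (2 ^ (20 * m)) (c.S g + 1) F.Cn (2 ^ k - 1)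
                (fun i => arrOf cc i % F.q))
              (visC sp x y (c.ℓh N g) (c.c0 N g) cc (c.Nu2 g))
              (hidC x y (c.ℓh N g) (c.c0 N g)) (c.L g) 0 (enc (c.Kc g) 0 0) F.N)) →
        2 * Nat.card (Fin (c.Nu2 g + NS) → Fin (c.md N g)) ≤
          3 * Nat.card {cc : Fin (c.Nu2 g + NS) → Fin (c.md N g) //
            ED x y ≤ out cc ∧ (out cc : ℝ) ≤ (1 + ε) * ED x y} := by
  obtain ⟨m, k, cd, D1, e₀, E₁, h, C0, A0, hm, hE₁, hh, hC0, hA0, hmain⟩ :=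
    good_of_QT2 hQT famCls_fam2 hε
  refine ⟨m, k, cd, D1, e₀, E₁, h, C0, A0, hm, hE₁, hh, hC0, hA0, fun c hc q hq => ?_⟩
  have hM : c.M = 2 ^ (20 * m) := by rw [c.hbm, hc.hbm]
  obtain ⟨N0, hN0⟩ := hmain c.e₁ c.ak q hc.he₁ hc.hak hq
  obtain ⟨N0', hN0'⟩ := exists_sideM (q := q) hm hq e₀ c.e₁ 0 c.ak 0 c.he₁
    (by have := hc.hak; omega)
  refine ⟨max N0 N0', fun N₁ hN₁ x y N g NS sp F hN hg hsp hF hNS out hout0 hout1 => ?_⟩
  rcases Nat.lt_or_ge N N₁ with hlt | hge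
  · -- the band covers everything
    have h1 : ED x y ≤ c.kb N₁ N g := by
      rw [Cst2.kb_of_lt hlt, hN]
      exact ED_le_add x y
    have h2 : ∀ cc, ED x y ≤ out cc ∧ (out cc : ℝ) ≤ (1 + ε) * ED x y := by
      intro cc
      rw [hout0 h1 cc]
      refine ⟨le_rfl, ?_⟩
      have : (0 : ℝ) ≤ ED x y := Nat.cast_nonneg _
      nlinarith
    rw [Nat.card_congr (Equiv.subtypeUnivEquiv h2)]
    omega
  have hL : c.L g = H809.lev (2 ^ m) (2 ^ (20 * m)) q N := by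
    rw [← hc.hB, ← hM, hg]; rfl
  have hS : c.S g = H809.scalN (2 ^ m) (2 ^ (20 * m)) q N := by
    rw [← hc.hB, ← hM, hg]; rfl
  have hz : c.z g = e₀ * 2 ^ c.S g + c.e₁ := by rw [← hc.he₀]; rfl
  have hK : c.K g = (2 ^ (20 * m)) ^ c.L g := by rw [← hM]; rfl
  have hKc : c.Kc g = c.w g + 4 := by rw [← hc.hc2]; rfl
  have hl2 : c.ℓ2 N g = 2 * c.ℓh N g := Cst2.ℓ2_eq_two_mul N g
  have hc0 : c.c0 N g = (2 ^ (20 * m)) ^ c.L g * c.ℓh N g := by rw [← hK]; rfl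
  have hp : ParM m (c.L g) (c.w g) (c.z g) N (c.μ2 N g) (c.w0 N g) (c.ℓh N g) :=
    ⟨by rw [← hK]; rfl, rfl, rfl⟩
  obtain ⟨-, -, -, -, -, hE⟩ := hN0' N (c.L g) (c.S g) (c.w g) (c.z g)
    ((le_max_right _ _).trans (hN₁.trans hge)) hL hS rfl hz
  have hse : sp = spM m (c.L g) (c.w g) (c.ℓh N g) := by
    rw [hsp]
    unfold spM
    have h1 : 10 * (c.w g + 8) ≤ Nat.log 2 (2 * c.ℓh N g) := hp.le_log hE
    have h2 : c.se N g = Nat.log 2 (2 * c.ℓh N g) := by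
      unfold Cst2.se
      rw [hl2]
      exact max_eq_left h1
    have h3 : c.kap g = 20 * m * c.L g := by
      unfold Cst2.kap
      rw [hc.hbm]
    rw [h2, h3]
    rfl
  have hlog : (spM m (c.L g) (c.w g) (c.ℓh N g)).e + 1 ≤ c.lmd N g := by
    have := Cst2.log_le_lmd (c := c) N g
    rw [hl2] at this
    exact this
  subst hse
  rw [hc0] at hout1
  rw [hKc] at hF hout1
  rw [hl2] at hF
  rw [hK] at hout1
  have hCn : F.Cn = c.Cn g := by
    rw [hF, H155.fam2_Cn]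
    unfold H527.Cst.Cn
    rw [hc.hms]
  have hFq : F.q = c.md N g := by
    rw [hF, H155.fam2_q]
    unfold Cst2.md Cst2.lmd
    rw [hc.hkc, hc.hmt, hl2]
  refine hN0 x y (c.L g) (c.S g) (c.w g) (c.z g) (c.μ2 N g) (c.w0 N g) (c.ℓh N g) (c.B2 N g)
    (c.Q g) (c.kb N₁ N g) (c.Nu2 g + NS) (c.Nu2 g) (c.md N g) ?_ ?_ ?_ rfl hz ?_ ?_ ?_ ?_ F hF
    (Cst2.md_pos N g) ?_ ?_ ?_ ?_ ?_ out hout0 ?_
  · rw [← hN]; exact (le_max_left _ _).trans (hN₁.trans hge)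
  · rw [← hN]; exact hL
  · rw [← hN]; exact hS
  · rw [← hN]; exact hp
  · rw [Cst2.B2_eq_wd, hc.hbm, hKc]
  · rw [← hK]
    unfold H527.Cst.Q
    rw [hc.hh]
    exact Nat.mul_le_mul_right _ hc.hC0
  · rw [← hN, Cst2.kb_of_le hge]
    have h2 : N ≤ 2 ^ c.w g * (N / 2 ^ c.w g + 1) :=
      (Nat.lt_mul_div_succ N (by positivity)).le
    refine h2.trans (Nat.mul_le_mul (Nat.pow_le_pow_right (by norm_num) (by omega)) ?_)
    calc N / 2 ^ c.w g + 1 ≤ c.C1 * (N / 2 ^ c.w g + 1) :=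
          Nat.le_mul_of_pos_left _ hc.hC1
      _ ≤ _ := Nat.le_succ _
  · exact Cst2.two_pow_dvd_md (by
      refine le_trans ?_ hlog
      unfold H36.SP.lM
      omega)
  · exact Cst2.two_pow_dvd_md (by
      refine le_trans ?_ hlog
      unfold H36.SP.lc
      omega)
  · rw [hFq]
  · rw [hCn]
    unfold nSeed Cst2.Nu2
    rw [hM, Nat.mul_assoc]
  · omega
  · exact hout1

end Vale.Agent.P315.H54
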