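import Vale.Agent.P315.H36.Real
import Vale.Agent.P315.H95.Label
import Vale.Agent.P315.H608.SubQ
import Vale.Agent.P315.Top.Num

/-!
P315, milestone 2: the parameters of the final algorithm as functions of the length, and the
side conditions.

`N` = length, `L` levels, `S` scales, `K = (2 ^ (20 m)) ^ L` rows, `w = L / A₂` = logarithm of the
range of the densities, `z = e₀ 2 ^ S + e₁` = logarithm of `w0 / μ`, classes `≤ Kc = w + 4`,
`w0 = 2 ^ z μ`, row length `2 * l2 = 2 ^ w * w0`; `START` with window `2 * l2` and accuracy `2 ^ w`.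
-/

set_option autoImplicit false

namespace Vale.Agent.P315.H54

open Vale.Agent.P315 Vale.Agent.P315.H95 Vale.Agent.P315.H809 Finset

/-- The parameters of `START`: row length `2 * l2`, accuracy `2 ^ w`, `K = 2 ^ (20 m L)` rows. -/
def spM (m L w l2 : ℕ) : H36.SP := ⟨Nat.log 2 (2 * l2), w, 20 * m * L⟩

/-- The equations which define the parameters of the final algorithm. -/
structure ParM (m L w z N μ w0 l2 : ℕ) : Prop where
  μ_eq : μ = N / ((2 ^ (20 * m)) ^ L * 2 ^ (w + z)) + 1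
  w0_eq : w0 = 2 ^ z * μ
  l2_eq : l2 = 2 ^ (w + z - 1) * μ

/-- The inequalities between the exponents. -/
structure ExpM (m L w z N : ℕ) : Prop where
  m_pos : 1 ≤ m
  z_pos : 1 ≤ z
  eight : 8 ≤ L
  le : w ≤ L
  le' : w + 4 + z ≤ 20 * m * L
  cube : ((2 ^ (20 * m)) ^ L) ^ 3 ≤ N + 1

section
variable {m L w z N μ w0 l2 : ℕ}

theorem rows_eq (m L : ℕ) : (2 ^ (20 * m)) ^ L = 2 ^ (20 * m * L) := by rw [← pow_mul]

theorem ExpM.two_le (hE : ExpM m L w z N) : 2 ≤ (2 ^ (20 * m)) ^ L := by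
  have h1 := hE.m_pos
  have h2 := hE.eight
  rw [rows_eq]
  calc 2 = 2 ^ 1 := rfl
    _ ≤ 2 ^ (20 * m * L) := Nat.pow_le_pow_right (by norm_num) (Nat.mul_pos (by omega) (by omega))

theorem ExpM.sq_le (hE : ExpM m L w z N) : ((2 ^ (20 * m)) ^ L) ^ 2 ≤ N := by
  have h1 := hE.two_le
  have h2 := hE.cube
  set K := (2 ^ (20 * m)) ^ L with hK
  have h3 : K ^ 3 = K * K ^ 2 := by ring
  have h4 : 2 * K ^ 2 ≤ K * K ^ 2 := Nat.mul_le_mul_right _ h1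
  have h5 : 1 ≤ K ^ 2 := Nat.one_le_pow _ _ (by omega)
  omega

theorem two_pow_add_four (w : ℕ) : 2 ^ (w + 4) = 2 ^ w * 16 := by rw [pow_add]; norm_num

namespace ParM

variable (hp : ParM m L w z N μ w0 l2)

include hp

theorem μ_pos : 0 < μ := by rw [hp.μ_eq]; exact Nat.succ_pos _

theorem w0_pos : 0 < w0 := by
  rw [hp.w0_eq]; exact Nat.mul_pos (Nat.pow_pos (by norm_num)) hp.μ_pos

theorem μ_dvd_w0 : μ ∣ w0 := by rw [hp.w0_eq]; exact dvd_mul_left _ _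

theorem μ_dvd : μ ∣ l2 := by rw [hp.l2_eq]; exact dvd_mul_left _ _

theorem two_mul_l2' (hz : 1 ≤ z) : 2 * l2 = 2 ^ (w + z) * μ := by
  have e : w + z = (w + z - 1) + 1 := by omega
  rw [hp.l2_eq]
  conv_rhs => rw [e, pow_succ]
  ring

theorem two_mul_l2 (hz : 1 ≤ z) : 2 * l2 = 2 ^ w * w0 := by
  rw [hp.two_mul_l2' hz, hp.w0_eq, pow_add]; ring

theorem w0_dvd (hz : 1 ≤ z) : w0 ∣ 2 * l2 := by
  rw [hp.two_mul_l2 hz]; exact dvd_mul_left _ _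

theorem div_μ (hz : 1 ≤ z) : 2 * l2 / μ = 2 ^ (w + z) := by
  rw [hp.two_mul_l2' hz]; exact Nat.mul_div_cancel _ hp.μ_pos

theorem nine (hz : 1 ≤ z) : 9 * (2 * l2) + w0 ≤ 2 ^ (w + 4) * w0 := by
  rw [hp.two_mul_l2 hz, two_pow_add_four]
  have h1 : 1 ≤ 2 ^ w := Nat.one_le_two_pow
  calc 9 * (2 ^ w * w0) + w0 ≤ 9 * (2 ^ w * w0) + 2 ^ w * w0 :=
        Nat.add_le_add_left (Nat.le_mul_of_pos_left _ h1) _
    _ ≤ 2 ^ w * 16 * w0 := by nlinarith [Nat.zero_le (2 ^ w * w0)]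

/-- `K` rows of length `2 * l2`, as a multiple of the mesh. -/
theorem rows_mul (hz : 1 ≤ z) : (2 ^ (20 * m)) ^ L * (2 * l2) =
    ((2 ^ (20 * m)) ^ L * 2 ^ (w + z)) * μ := by
  rw [hp.two_mul_l2' hz]; ring

theorem cover (hz : 1 ≤ z) : N ≤ (2 ^ (20 * m)) ^ L * (2 * l2) := by
  rw [hp.rows_mul hz]
  have h1 : 0 < (2 ^ (20 * m)) ^ L * 2 ^ (w + z) := by positivity
  conv_rhs => rw [hp.μ_eq]
  exact (Nat.lt_mul_div_succ N h1).le

/-- The rows are not much longer than the strings. -/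
theorem rows_le (hz : 1 ≤ z) : (2 ^ (20 * m)) ^ L * (2 * l2) ≤
    N + (2 ^ (20 * m)) ^ L * 2 ^ (w + z) := by
  rw [hp.rows_mul hz]
  conv_lhs => rw [hp.μ_eq, Nat.mul_add, Nat.mul_one]
  exact Nat.add_le_add_right (Nat.mul_div_le _ _) _

theorem l2_pos (hz : 1 ≤ z) : 0 < 2 * l2 := by
  rw [hp.two_mul_l2' hz]; exact Nat.mul_pos (Nat.pow_pos (by norm_num)) hp.μ_pos

/-- The rows are long. -/
theorem le_l2 (hE : ExpM m L w z N) : ((2 ^ (20 * m)) ^ L) ^ 2 ≤ 2 * l2 := by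
  have h1 := hE.two_le
  have h2 := hE.cube
  have h3 := hp.cover hE.z_pos
  set K := (2 ^ (20 * m)) ^ L with hK
  by_contra hlt
  have h4 : 2 * l2 + 1 ≤ K ^ 2 := by omega
  have h5 : K * (2 * l2 + 1) ≤ K * K ^ 2 := Nat.mul_le_mul_left _ h4
  have h6 : K * K ^ 2 = K ^ 3 := by ring
  have h7 : K * (2 * l2 + 1) = K * (2 * l2) + K := by ring
  omega

theorem le_log (hE : ExpM m L w z N) : 10 * (w + 8) ≤ Nat.log 2 (2 * l2) := by
  have h1 := hp.le_l2 hE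
  have h2 := hE.le
  have h3 := hE.eight
  have h4 := hE.m_pos
  apply Nat.le_log_of_pow_le (by norm_num)
  refine le_trans ?_ h1
  rw [rows_eq, ← pow_mul]
  apply Nat.pow_le_pow_right (by norm_num)
  have h5 : 20 * 1 * L ≤ 20 * m * L := Nat.mul_le_mul_right _ (Nat.mul_le_mul_left _ h4)
  omega

theorem sp_ok (hE : ExpM m L w z N) : (spM m L w l2).Ok := hp.le_log hE

omit hp in
theorem lt_two_pow (m L w l2 : ℕ) : 2 * l2 < 2 ^ ((spM m L w l2).e + 1) :=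
  Nat.lt_pow_succ_log_self (by norm_num) _

/-- The window of `START` is at most the row length. -/
theorem pow_log_le (hz : 1 ≤ z) : 2 ^ (spM m L w l2).e ≤ 2 * l2 :=
  Nat.pow_log_le_self 2 (hp.l2_pos hz).ne'

theorem two_pow_le (hE : ExpM m L w z N) :
    2 ^ ((spM m L w l2).e - (spM m L w l2).lam) ≤ w0 := by
  have h1 := hp.le_log hE
  have h4 := hp.pow_log_le (m := m) (L := L) hE.z_pos
  have h5 := hp.two_mul_l2 hE.z_pos
  show 2 ^ (Nat.log 2 (2 * l2) - w) ≤ w0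
  have h6 : 2 ^ w * 2 ^ (Nat.log 2 (2 * l2) - w) = 2 ^ Nat.log 2 (2 * l2) := by
    rw [← pow_add]; congr 1; omega
  have h7 : 2 ^ w * 2 ^ (Nat.log 2 (2 * l2) - w) ≤ 2 ^ w * w0 := by
    rw [h6, ← h5]; exact h4
  exact Nat.le_of_mul_le_mul_left h7 (Nat.pow_pos (by norm_num))

/-- The width of the boxes is small against the distance. -/
theorem rows_w0 (hE : ExpM m L w z N) {E : ℕ} (hN : N ≤ 2 ^ (w + 4) * E) :
    (2 ^ (20 * m)) ^ L * w0 ≤ 17 * E := by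
  have h1 := hp.rows_le hE.z_pos
  have h2 := hE.sq_le
  have h3 := two_pow_add_four w
  have h4 : 2 ^ (w + 4) * 2 ^ z ≤ (2 ^ (20 * m)) ^ L := by
    rw [rows_eq, ← pow_add]
    exact Nat.pow_le_pow_right (by norm_num) hE.le'
  rw [hp.two_mul_l2 hE.z_pos] at h1
  set K := (2 ^ (20 * m)) ^ L with hK
  have h5 : 2 ^ (w + 4) * (K * w0) ≤ 2 ^ (w + 4) * (17 * E) := by
    calc 2 ^ (w + 4) * (K * w0) = 16 * (K * (2 ^ w * w0)) := by rw [h3]; ring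
      _ ≤ 16 * (N + K * 2 ^ (w + z)) := Nat.mul_le_mul_left _ h1
      _ = 16 * N + K * (2 ^ (w + 4) * 2 ^ z) := by rw [h3, pow_add]; ring
      _ ≤ 16 * N + K * K := Nat.add_le_add_left (Nat.mul_le_mul_left _ h4) _
      _ ≤ 16 * N + N := Nat.add_le_add_left (by rw [← sq]; exact h2) _
      _ = 17 * N := by ring
      _ ≤ 17 * (2 ^ (w + 4) * E) := Nat.mul_le_mul_left _ hN
      _ = 2 ^ (w + 4) * (17 * E) := by ring
  exact Nat.le_of_mul_le_mul_left h5 (Nat.pow_pos (by norm_num))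

/-- **The error of the value.** -/
theorem error_le (hE : ExpM m L w z N) {E : ℕ} (hN : N ≤ 2 ^ (w + 4) * E) {ε : ℝ}
    (hε : 0 < ε) (ht : 221 ≤ 2 ^ z) (ht' : 578 ≤ ε * (2 ^ z : ℕ)) :
    8 * (ε / 560) * (9 * (E + 1 + ((2 ^ (20 * m)) ^ L : ℕ) * (8 * μ + 2) + 2 * μ) +
        ((2 ^ (20 * m)) ^ L : ℕ) * w0) + (3 + ((2 ^ (20 * m)) ^ L : ℕ) * (8 * μ + 2) + 4 * μ) ≤
      ε * E := by
  have h1 := hp.rows_w0 hE hN
  have h2 := hE.two_le
  have h3 : 1 ≤ μ := hp.μ_pos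
  have h4 := hp.w0_eq
  set K := (2 ^ (20 * m)) ^ L with hK
  set t := 2 ^ z with htdef
  have h1' : (K : ℝ) * w0 ≤ 17 * E := by exact_mod_cast h1
  have h4' : (w0 : ℝ) = t * μ := by exact_mod_cast h4
  have h3' : (1 : ℝ) ≤ μ := by exact_mod_cast h3
  have h2' : (2 : ℝ) ≤ K := by exact_mod_cast h2
  have ht'' : (221 : ℝ) ≤ t := by exact_mod_cast ht
  have hE0 : (0 : ℝ) ≤ E := Nat.cast_nonneg _
  have hKμ : (μ : ℝ) ≤ K * μ := by nlinarith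
  have hKμ2 : (K : ℝ) ≤ K * μ := by nlinarith
  have hKμ3 : (1 : ℝ) ≤ K * μ := by nlinarith
  set Z : ℝ := (K : ℝ) * μ with hZ
  have h5 : (t : ℝ) * Z ≤ 17 * E := by
    calc (t : ℝ) * Z = K * w0 := by rw [h4', hZ]; ring
      _ ≤ _ := h1'
  have h6 : 13 * Z ≤ E := by
    have : 221 * Z ≤ t * Z := mul_le_mul_of_nonneg_right ht'' (by linarith)
    linarith
  have h7 : 34 * Z ≤ ε * E := by
    have e1 : 578 * Z ≤ (ε * t) * Z := mul_le_mul_of_nonneg_right ht' (by linarith)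
    have e2 : (ε * t) * Z ≤ ε * (17 * E) := by
      rw [mul_assoc]; exact mul_le_mul_of_nonneg_left h5 hε.le
    linarith
  have h8 : (K : ℝ) * (8 * μ + 2) ≤ 10 * Z := by
    calc (K : ℝ) * (8 * μ + 2) = 8 * Z + 2 * K := by rw [hZ]; ring
      _ ≤ 10 * Z := by linarith
  have h9 : 9 * (E + 1 + (K : ℝ) * (8 * μ + 2) + 2 * μ) + (K : ℝ) * w0 ≤ 35 * E := by linarith
  have h10 : 8 * (ε / 560) * (9 * (E + 1 + (K : ℝ) * (8 * μ + 2) + 2 * μ) + (K : ℝ) * w0) ≤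
      8 * (ε / 560) * (35 * E) := mul_le_mul_of_nonneg_left h9 (by positivity)
  have h11 : 8 * (ε / 560) * (35 * (E : ℝ)) = ε * E / 2 := by ring
  linarith

end ParM

/-- The boxes of the root fit. -/
theorem rows_le_wd (hE : ExpM m L w z N) (hp : ParM m L w z N μ w0 l2) :
    (2 ^ (20 * m)) ^ L * (2 * l2) ≤ 2 * wd (20 * m) w0 L (w + 4) := by
  have h1 := hp.nine hE.z_pos
  have h2 : 2 * l2 ≤ 2 ^ (w + 4) * w0 := by omega
  calc (2 ^ (20 * m)) ^ L * (2 * l2) ≤ (2 ^ (20 * m)) ^ L * (2 ^ (w + 4) * w0) :=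
        Nat.mul_le_mul_left _ h2
    _ = wd (20 * m) w0 L (w + 4) := by unfold wd; ring
    _ ≤ 2 * wd (20 * m) w0 L (w + 4) := by omega

end

/-! ### Long inputs -/

/-- **The side conditions of milestone 2** hold for all long inputs. -/
theorem exists_sideM {m q : ℕ} (hm : 1 ≤ m) (hq : 3 ≤ q) (e₀ e₁ a₀ A₂ n₀ : ℕ) (he₁ : 1 ≤ e₁)
    (hA : 2 * a₀ + 1 ≤ A₂) : ∃ N0 : ℕ, ∀ N L S w z : ℕ, N0 ≤ N →
      L = H809.lev (2 ^ m) (2 ^ (20 * m)) q N → S = scalN (2 ^ m) (2 ^ (20 * m)) q N →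
      w = L / A₂ → z = e₀ * 2 ^ S + e₁ →
      n₀ ≤ L ∧ 2 ^ S ∣ L ∧ (L + 2) ^ 3 ≤ (2 ^ m) ^ 2 ^ S ∧ 2 ^ S ≤ 6 * (Nat.log 2 (L + 2) + 2) ∧
      a₀ * (w + 4 + 1) ≤ L ∧ ExpM m L w z N := by
  have hB2 : 2 ≤ 2 ^ m := by
    calc 2 = 2 ^ 1 := rfl
      _ ≤ 2 ^ m := Nat.pow_le_pow_right (by norm_num) hm
  have hM2 : 2 ≤ 2 ^ (20 * m) := by
    calc 2 = 2 ^ 1 := rfl
      _ ≤ 2 ^ (20 * m) := Nat.pow_le_pow_right (by norm_num) (by omega)
  obtain ⟨N1, hN1⟩ := Top.exists_side (q := q) hB2 hM2 (by omega) 1 m 0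
    (n₀ + 8 + 10 * a₀ + e₁) le_rfl
  obtain ⟨N2, hN2⟩ := Vale.Agent.P315.Par.exists_large hB2 hM2 (by omega : 1 ≤ q) (e₀ : ℝ)
    (η := 1) one_pos 1
  refine ⟨max N1 N2, fun N L S w z hN hL hS hw hz => ?_⟩
  obtain ⟨s1, s2, s3, s4, -, -⟩ := hN1 N ((le_max_left _ _).trans hN)
  have r1 := hN2 N ((le_max_right _ _).trans hN)
  rw [← hL] at s1 s2 s3 s4 r1
  rw [← hS] at s2 s3 s4 r1
  have hcube := rows_pow_le (M := 2 ^ (20 * m)) (2 ^ m) q N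
  rw [← hL] at hcube
  have r2 : e₀ * 2 ^ S ≤ L := by
    rw [pow_one, one_mul] at r1
    exact_mod_cast r1
  have hA2 : 0 < A₂ := by omega
  have k1 : w * A₂ ≤ L := by rw [hw]; exact Nat.div_mul_le_self _ _
  have k2 : w ≤ L := by rw [hw]; exact Nat.div_le_self _ _
  have k4 : w * (2 * a₀ + 1) ≤ L := (Nat.mul_le_mul_left _ hA).trans k1
  refine ⟨by omega, s2, s3, s4, ?_, ⟨hm, by omega, by omega, k2, ?_, ?_⟩⟩
  · have k5 : w * (2 * a₀ + 1) = 2 * (a₀ * w) + w := by ring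
    have k6 : a₀ * (w + 4 + 1) = a₀ * w + 5 * a₀ := by ring
    omega
  · have h5 : 20 * 1 * L ≤ 20 * m * L := Nat.mul_le_mul_right _ (Nat.mul_le_mul_left _ hm)
    omega
  · refine le_trans ?_ hcube
    rw [← pow_mul]
    apply Nat.pow_le_pow_right (by omega)
    calc L * 3 = 3 * L := Nat.mul_comm _ _
      _ ≤ q * L := Nat.mul_le_mul_right _ hq

end Vale.Agent.P315.H54
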