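import Vale.Agent.P315.H54.GoodOne
import Vale.Agent.P315.H54.Num2
import Vale.Agent.P315.Top.Good

/-!
P315, milestone 2, T-TOP: from the query theorem `StmtQT2` to the statement that two thirds of the
seeds are good, for all long inputs (multiplicative error).
-/

set_option autoImplicit false

namespace Vale.Agent.P315.H54

open Vale.Agent.P315 Vale.Agent.P315.C Vale.Agent.P315.H95 Finset
open Vale.Agent.P315.H846 (Inst2 Good2 StmtQT2)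
open Vale.Agent.P315.H659 (nSeed rndOf arrOf)

/-- The shape of the family of parameters. -/
structure FamCls (fam : (m k cd D1 n S ℓ μ B w0 Kc κr : ℕ) → QPar) : Prop where
  P_eq : ∀ m k cd D1 n S ℓ μ B w0 Kc κr, ∃ H, (fam m k cd D1 n S ℓ μ B w0 Kc κr).P =
    clsPar (20 * m) ℓ μ B w0 (2 ^ k - 1) (S + 1) H (Kc + 3) D1
  n_eq : ∀ m k cd D1 n S ℓ μ B w0 Kc κr, (fam m k cd D1 n S ℓ μ B w0 Kc κr).n = n
  q_pos : ∀ m k cd D1 n S ℓ μ B w0 Kc κr, 0 < (fam m k cd D1 n S ℓ μ B w0 Kc κr).q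

/-- The number of rounds is large enough. -/
theorem reads_leM {c A : ℝ} (hc : 0 < c) {h C0 a₀ A₂ : ℕ} (hh : 1 / (c / 2) ≤ h)
    (hC0 : 16 * |A * 2 ^ (a₀ * 4)| ≤ C0) (hA₂ : 1 ≤ A₂) (hA : 2 * (a₀ : ℝ) ≤ c * A₂) (K L : ℕ)
    {w : ℕ} (hw : w = L / A₂) :
    8 * (A * 2 ^ (a₀ * (w + 4)) * ((K : ℝ) ^ 2 * Real.exp (-c * L))) + 1 ≤
      (((C0 + 2) * (K ^ 2 / 2 ^ (L / (h + 1)) + 1) : ℕ) : ℝ) := by
  have hw' : A₂ * w ≤ L := by rw [hw]; exact Nat.mul_div_le _ _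
  have h1 := H608.two_pow_mul_exp_le a₀ hA₂ hA hw'
  set A' : ℝ := A * 2 ^ (a₀ * 4) with hA'
  have hA0 : 0 ≤ |A'| := abs_nonneg A'
  have e0 : abs (4 / 3 * |A'|) = 4 / 3 * |A'| := abs_of_nonneg (by positivity)
  have h2 := Top.reads_le (A := 4 / 3 * |A'|) (half_pos hc) hh (C0 := C0) (by rw [e0]; linarith)
    K L
  have e1 : (2 : ℝ) ^ (a₀ * (w + 4)) = ((2 : ℝ) ^ w) ^ a₀ * 2 ^ (a₀ * 4) := by
    rw [← pow_mul, ← pow_add]; congr 1; ring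
  have e2 : -c * (L : ℝ) = -(c * L) := by ring
  have e3 : -(c / 2) * (L : ℝ) = -(c / 2 * L) := by ring
  rw [e3] at h2
  have h3 : A * 2 ^ (a₀ * (w + 4)) * ((K : ℝ) ^ 2 * Real.exp (-c * L)) ≤
      |A'| * ((K : ℝ) ^ 2 * Real.exp (-(c / 2 * L))) := by
    rw [e1, e2]
    have h4 : 0 ≤ ((2 : ℝ) ^ w) ^ a₀ * Real.exp (-(c * L)) := by positivity
    calc A * (((2 : ℝ) ^ w) ^ a₀ * 2 ^ (a₀ * 4)) * ((K : ℝ) ^ 2 * Real.exp (-(c * L)))
        = A' * ((K : ℝ) ^ 2 * (((2 : ℝ) ^ w) ^ a₀ * Real.exp (-(c * L)))) := by rw [hA']; ring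
      _ ≤ |A'| * ((K : ℝ) ^ 2 * (((2 : ℝ) ^ w) ^ a₀ * Real.exp (-(c * L)))) :=
          mul_le_mul_of_nonneg_right (le_abs_self A') (by positivity)
      _ ≤ |A'| * ((K : ℝ) ^ 2 * Real.exp (-(c / 2 * L))) :=
          mul_le_mul_of_nonneg_left (mul_le_mul_of_nonneg_left h1 (by positivity)) hA0
  set V : ℕ := K ^ 2 / 2 ^ (L / (h + 1)) + 1 with hV
  have hV1 : (1 : ℝ) ≤ V := by
    have : 1 ≤ V := by rw [hV]; exact Nat.le_add_left _ _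
    exact_mod_cast this
  have e4 : (((C0 + 2) * V : ℕ) : ℝ) = (((C0 + 1) * V : ℕ) : ℝ) + V := by push_cast; ring
  rw [e4]
  linarith

/-- **Two thirds of the seeds are good**, for all long inputs, with multiplicative error. The
parameters (`ParM`): `L` levels, `S` scales, `w = L / A₂`, `z = e₀ 2 ^ S + e₁`, classes up to
`w + 4`, `START` with parameters `spM`, band up to `kb` with `N ≤ 2 ^ (w + 4) (kb + 1)`. The seeds
of the query algorithm are the first words of `c` (modulo `F.q`), those of `START` are the words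
from address `o` on (`visC`). -/
theorem good_of_QT2 {fam : (m k cd D1 n S ℓ μ B w0 Kc κr : ℕ) → QPar} (hQT : StmtQT2 fam)
    (hfam : FamCls fam) {ε : ℝ} (hε : 0 < ε) :
    ∃ m k cd D1 e₀ E₁ h C0 A0 : ℕ, 1 ≤ m ∧ 1 ≤ E₁ ∧ 1 ≤ h ∧ 1 ≤ C0 ∧ 1 ≤ A0 ∧
      ∀ e₁ A₂ q : ℕ, E₁ ≤ e₁ → A0 ≤ A₂ → 3 ≤ q →
      ∃ N0 : ℕ, ∀ (x y : List ℕ) (L S w z μ w0 l2 B Qr kb Ns o e : ℕ),
        N0 ≤ x.length + y.length →
        L = H809.lev (2 ^ m) (2 ^ (20 * m)) q (x.length + y.length) →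
        S = H809.scalN (2 ^ m) (2 ^ (20 * m)) q (x.length + y.length) →
        w = L / A₂ → z = e₀ * 2 ^ S + e₁ → ParM m L w z (x.length + y.length) μ w0 l2 →
        2 * wd (20 * m) w0 L (w + 4) ≤ B →
        C0 * (((2 ^ (20 * m)) ^ L) ^ 2 / 2 ^ (L / h) + 1) ≤ Qr →
        x.length + y.length ≤ 2 ^ (w + 4) * (kb + 1) →
        ∀ F : QPar, F = fam m k cd D1 L S (2 * l2) μ B w0 (w + 4) (w + 4) →
        0 < e → (spM m L w l2).M ∣ e → (spM m L w l2).b ∣ e → F.q ∣ e →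
        nSeed L (2 ^ (20 * m)) (S + 1) F.Cn ≤ o →
        o + (spM m L w l2).s + (spM m L w l2).R ≤ Ns →
        ∀ out : (Fin Ns → Fin e) → ℕ, (ED x y ≤ kb → ∀ c, out c = ED x y) →
        (kb < ED x y → ∀ c, ∃ R : Finset (ℕ × ℕ),
          out c = cval F.P (visC (spM m L w l2) x y l2 ((2 ^ (20 * m)) ^ L * l2) c o)
            (hidC x y l2 ((2 ^ (20 * m)) ^ L * l2)) R L 0 ((2 ^ (20 * m)) ^ L * l2)
            (pendF x y μ l2 ((2 ^ (20 * m)) ^ L * l2) ((2 ^ (20 * m)) ^ L)) + (2 * μ + 1) ∧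
          ((rd F.P F.mc (rndOf L (2 ^ (20 * m)) (S + 1) F.Cn (2 ^ k - 1)
                (fun i => arrOf c i % F.q))
              (visC (spM m L w l2) x y l2 ((2 ^ (20 * m)) ^ L * l2) c o)
              (hidC x y l2 ((2 ^ (20 * m)) ^ L * l2)) L 0 (enc (w + 4) 0 0) F.N).card ≤ Qr →
            R = rd F.P F.mc (rndOf L (2 ^ (20 * m)) (S + 1) F.Cn (2 ^ k - 1)
                (fun i => arrOf c i % F.q))
              (visC (spM m L w l2) x y l2 ((2 ^ (20 * m)) ^ L * l2) c o)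
              (hidC x y l2 ((2 ^ (20 * m)) ^ L * l2)) L 0 (enc (w + 4) 0 0) F.N)) →
        2 * Nat.card (Fin Ns → Fin e) ≤ 3 * Nat.card {c : Fin Ns → Fin e //
          ED x y ≤ out c ∧ (out c : ℝ) ≤ (1 + ε) * ED x y} := by
  obtain ⟨m, k, cd, D1, e₀, a₀, n₀, c, A, hm, hc, hmain⟩ := hQT (ε / 560) (by positivity)
  obtain ⟨h, hh⟩ := exists_nat_ge (1 / (c / 2))
  obtain ⟨C0, hC0⟩ := exists_nat_ge (16 * |A * 2 ^ (a₀ * 4)|)
  obtain ⟨A0, hA0⟩ := exists_nat_ge (2 * (a₀ : ℝ) / c)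
  obtain ⟨t₁, ht₁⟩ := exists_nat_ge (578 / ε)
  refine ⟨m, k, cd, D1, e₀, t₁ + 8, h + 1, C0 + 2, A0 + 2 * a₀ + 1, hm, by omega, by omega,
    by omega, by omega, fun e₁ A₂ q he₁ hA₂ hq => ?_⟩
  obtain ⟨N0, hN0⟩ := exists_sideM (q := q) hm hq e₀ e₁ a₀ A₂ n₀ (by omega) (by omega)
  refine ⟨N0, ?_⟩
  intro x y L S w z μ w0 l2 B Qr kb Ns o e hN hL hS hw hz hp hB hQr hkb F hF he hMe hbe hqe ho
    hNs out hout0 hout1
  obtain ⟨s1, s2, s3, s4, s5, hE⟩ := hN0 _ L S w z hN hL hS hw hz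
  have hdvd : 2 ^ (e₀ * 2 ^ S) * μ ∣ w0 := by
    rw [hp.w0_eq, hz, pow_add]
    exact ⟨2 ^ e₁, by ring⟩
  have hGood := hmain L S (2 * l2) μ B w0 (w + 4) (w + 4) s1 s2 s3 s4 hp.μ_pos hp.w0_pos
    (dvd_mul_right _ _) hdvd (hp.w0_dvd hE.z_pos) s5 (by omega) hB
  rw [← hF] at hGood
  have e0 : (2 ^ (20 * m * L) : ℝ) = (((2 ^ (20 * m)) ^ L : ℕ) : ℝ) := by
    rw [pow_mul]; push_cast; rfl
  rw [e0] at hGood
  obtain ⟨H, hP⟩ := hfam.P_eq m k cd D1 L S (2 * l2) μ B w0 (w + 4) (w + 4)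
  have hn := hfam.n_eq m k cd D1 L S (2 * l2) μ B w0 (w + 4) (w + 4)
  have hq0 := hfam.q_pos m k cd D1 L S (2 * l2) μ B w0 (w + 4) (w + 4)
  rw [← hF] at hP hn hq0
  have hA2r : 2 * (a₀ : ℝ) ≤ c * A₂ := by
    rw [div_le_iff₀ hc] at hA0
    have : (A0 : ℝ) ≤ A₂ := by exact_mod_cast (by omega : A0 ≤ A₂)
    nlinarith
  have hreads := reads_leM (A := A) hc hh hC0 (by omega) hA2r ((2 ^ (20 * m)) ^ L) L hw
  replace hreads := hreads.trans (Nat.cast_le.2 hQr)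
  have hlt : e₁ < 2 ^ e₁ := Nat.lt_two_pow_self
  have hle : 2 ^ e₁ ≤ 2 ^ z :=
    Nat.pow_le_pow_right (by norm_num) (by rw [hz]; exact Nat.le_add_left _ _)
  have ht : 221 ≤ 2 ^ z := by
    refine le_trans ?_ hle
    calc 221 ≤ 2 ^ 8 := by norm_num
      _ ≤ 2 ^ e₁ := Nat.pow_le_pow_right (by norm_num) (by omega)
  have ht' : 578 ≤ ε * (2 ^ z : ℕ) := by
    have h1 : (t₁ : ℝ) ≤ (2 ^ z : ℕ) := by
      have h3 : t₁ ≤ 2 ^ z := by
        calc t₁ ≤ e₁ := by omega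
          _ ≤ 2 ^ e₁ := hlt.le
          _ ≤ 2 ^ z := hle
      exact_mod_cast h3
    have h2 := ht₁.trans h1
    rw [div_le_iff₀ hε] at h2
    linarith
  have hrw := rows_le_wd hE hp
  refine good2_one (F := F) (m := 20 * m) (n := L) (μ := μ) (B := B) (w0 := w0) (J := 2 ^ k - 1)
    (S := S + 1) (H := H) (Kc := w + 4) (D1 := D1) (l2 := l2) (Qr := Qr) (kb := kb) (o := o)
    (q := spM m L w l2) hε.le (by positivity) hP hn hq0 hGood hp.μ_pos hp.μ_dvd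
    (hp.cover hE.z_pos) (hrw.trans hB) hp.w0_pos (hp.nine hE.z_pos) (hp.sp_ok hE)
    (ParM.lt_two_pow m L w l2) ?_ (hp.two_pow_le hE) he hMe hbe hqe ho hNs hreads ?_ out hout0
    hout1
  · rw [rows_eq]
    exact le_rfl
  · intro hlt'
    exact hp.error_le hE (hkb.trans (Nat.mul_le_mul_left _ hlt')) hε ht ht'

end Vale.Agent.P315.H54
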