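import Vale.Agent.P315.H54.GoodCst

/-!
P315, milestone 2: the constants of the final algorithm.
-/

set_option autoImplicit false

namespace Vale.Agent.P315.H54

open Vale.Agent.P315.H608 (Cst2)

theorem two_le_pow_m {m a : ℕ} (ha : 1 ≤ a) (hm : 1 ≤ m) : 2 ≤ 2 ^ (a * m) := by
  calc 2 = 2 ^ 1 := rfl
    _ ≤ 2 ^ (a * m) := Nat.pow_le_pow_right (by norm_num) (Nat.mul_pos ha hm)

/-- The constants of the final algorithm. -/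
def mulCst (m k h C0 ak e₀ e₁ C1 : ℕ) (hm : 1 ≤ m) (hh : 1 ≤ h) (hC0 : 1 ≤ C0) (hak : 1 ≤ ak)
    (he₁ : 1 ≤ e₁) : Cst2 where
  B := 2 ^ m
  M := 2 ^ (20 * m)
  C0 := C0
  h := h
  wm := 2 * h
  ms := 4 * m
  kc := k
  mt := 270 * m
  mm := m
  mp := 0
  hB := by have := two_le_pow_m (a := 1) le_rfl hm; rwa [Nat.one_mul] at this
  hM := two_le_pow_m (by norm_num) hm
  hC0 := hC0
  hh := hh
  hwm := le_rfl
  ak := ak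
  e₀ := e₀
  e₁ := e₁
  c2 := 4
  bm := 20 * m
  C1 := C1
  hak := hak
  he₁ := he₁
  hbm := rfl

section
variable {m k h C0 ak e₀ e₁ C1 : ℕ} (hm : 1 ≤ m) (hh : 1 ≤ h) (hC0 : 1 ≤ C0) (hak : 1 ≤ ak)
  (he₁ : 1 ≤ e₁)

theorem mulCst_fit {E₁ C0' Ak : ℕ} (h1 : C0' ≤ C0) (h2 : Ak ≤ ak) (h3 : E₁ ≤ e₁) (h4 : 1 ≤ C1) :
    CstFit (mulCst m k h C0 ak e₀ e₁ C1 hm hh hC0 hak he₁) m k e₀ E₁ h C0' Ak :=
  ⟨rfl, rfl, rfl, rfl, h3, h2, rfl, h1, h4, rfl, rfl, rfl⟩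

end

end Vale.Agent.P315.H54
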