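import Vale.Agent.P315.H54.WinM

/-!
P315, row M2-WIN, part (B): the optimal mesh route of the moving frame.

`PStarM P X Y l2 c0 K v pos q D`: `pos i` = start of the route in row `i` (after the shift),
`pos K = v`; `q i` = end of row `i`; `D i` = cost of row `i` plus the shift after it. The route stays
in the cones, and it is optimal between any two boundaries: exact additivity, no error term.
-/

set_option autoImplicit false

namespace Vale.Agent.P315.H54

open Vale.Agent.P315 Vale.Agent.P315.C Finset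

variable {P : Par} {l2 c0 : ℕ}

/-- The clamped route. -/
def clr (l2 c0 : ℕ) (r : ℕ → ℕ × ℕ) (i : ℕ) : ℕ × ℕ :=
  (clc l2 c0 i (r i).1, clc l2 c0 (i + 1) (r i).2)

theorem prevPos_clr (r : ℕ → ℕ × ℕ) (i : ℕ) :
    prevPos c0 (clr l2 c0 r) i = clc l2 c0 i (prevPos c0 r i) := by
  cases i with
  | zero =>
    show c0 = clc l2 c0 0 c0
    unfold clc; omega
  | succ i => rfl

theorem routeOK_clr (F : Frame P l2 c0) {m : ℕ} {r : ℕ → ℕ × ℕ} (hr : P.RouteOK m r) :
    P.RouteOK m (clr l2 c0 r) := by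
  intro i hi
  obtain ⟨h1, h2, h3, h4, h5⟩ := hr i hi
  have h6 := (F.adm _ _).1 h5
  exact ⟨clc_dvd F.dvd_l2 F.dvd_c0 i h1, clc_dvd F.dvd_l2 F.dvd_c0 (i + 1) h2,
    clc_le F.le_B i h3, clc_le F.le_B (i + 1) h4, (F.adm _ _).2 (clc_adm h6.1 h6.2)⟩

theorem rcost_clr (X Y : ℕ → ℕ) (m v : ℕ) (r : ℕ → ℕ × ℕ) (hv : InCone l2 c0 m v) :
    rcost 2 m (hidM X Y l2 c0) c0 v (clr l2 c0 r) ≤ rcost 2 m (hidM X Y l2 c0) c0 v r := by
  unfold rcost
  refine Nat.add_le_add (Finset.sum_le_sum fun i _ => ?_) ?_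
  · rw [prevPos_clr]
    refine Nat.add_le_add (Nat.mul_le_mul_left 2 (clc_dist i _ _)) ?_
    exact (hidM_clc X Y i _ _).le
  · rw [prevPos_clr]
    refine Nat.mul_le_mul_left 2 ?_
    have h := clc_dist (l2 := l2) (c0 := c0) m (prevPos c0 r m) v
    rwa [clc_of_cone hv] at h

/-- The optimal mesh route. -/
structure PStarM (P : Par) (X Y : ℕ → ℕ) (l2 c0 K v : ℕ) (pos q D : ℕ → ℕ) : Prop where
  zero : pos 0 = c0
  last : pos K = v
  cone : ∀ i ≤ K, InCone l2 c0 i (pos i)
  cone' : ∀ i < K, InCone l2 c0 (i + 1) (q i)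
  edge : ∀ i < K, H140.Ed P (pos i) (q i)
  cost : ∀ i < K, D i = hidM X Y l2 c0 i (pos i) (q i) + 2 * Nat.dist (q i) (pos (i + 1))
  opt : ∀ i m, i + m ≤ K →
    best P (hidM X Y l2 c0) i m (pos i) (pos (i + m)) = ∑ k ∈ range m, D (i + k)

/-- Regrouping the shifts of a route. -/
theorem sum_regroup (f : ℕ → ℕ → ℕ → ℕ) (u : ℕ) (r : ℕ → ℕ × ℕ) (pos : ℕ → ℕ) (K : ℕ)
    (h0 : pos 0 = u) (hp : ∀ i < K, pos i = (r i).1) (m : ℕ) (hm : m ≤ K) :
    ∑ i ∈ range m, (2 * Nat.dist (prevPos u r i) (r i).1 + f i (r i).1 (r i).2) +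
      2 * Nat.dist (prevPos u r m) (pos m) =
    ∑ i ∈ range m, (f i (pos i) (r i).2 + 2 * Nat.dist (r i).2 (pos (i + 1))) := by
  induction m with
  | zero => simp [prevPos, h0, Nat.dist_self]
  | succ m ih =>
    rw [Finset.sum_range_succ, Finset.sum_range_succ, ← ih (by omega), ← hp m (by omega)]
    show _ + _ + 2 * Nat.dist (r m).2 (pos (m + 1)) = _
    omega

theorem exists_pstarM (F : Frame P l2 c0) (X Y : ℕ → ℕ) (K v : ℕ) (hv : InCone l2 c0 K v) :
    ∃ pos q D, PStarM P X Y l2 c0 K v pos q D := by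
  obtain ⟨r, hr, he⟩ := H140.best_route (f := hidM X Y l2 c0) F.edge 0 K c0 v
  simp only [Nat.zero_add, F.sh] at he
  set r' := clr l2 c0 r with hr'
  have hr1 : P.RouteOK K r' := routeOK_clr F hr
  have hle := rcost_clr X Y K v r hv
  have hge := H140.best_le_rcost (f := hidM X Y l2 c0) 0 K c0 v r' hr1
  simp only [Nat.zero_add, F.sh] at hge
  have heq : rcost 2 K (hidM X Y l2 c0) c0 v r' = best P (hidM X Y l2 c0) 0 K c0 v :=
    le_antisymm (hle.trans he.le) hge
  set pos : ℕ → ℕ := fun i => if i < K then (r' i).1 else v with hpos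
  have hcone0 : ∀ p, InCone l2 c0 0 p → p = c0 := by
    intro p hp; have := hp.1; have := hp.2; omega
  have hcone : ∀ i ≤ K, InCone l2 c0 i (pos i) := by
    intro i hi
    simp only [hpos]
    split_ifs with h
    · exact clc_cone i _
    · rw [show i = K by omega]; exact hv
  have hzero : pos 0 = c0 := hcone0 _ (hcone 0 (Nat.zero_le _))
  have hp : ∀ i < K, pos i = (r' i).1 := fun i hi => by simp only [hpos, if_pos hi]
  have hlast : pos K = v := by simp only [hpos, if_neg (Nat.lt_irrefl K)]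
  set D : ℕ → ℕ := fun i => hidM X Y l2 c0 i (pos i) (r' i).2 +
    2 * Nat.dist (r' i).2 (pos (i + 1)) with hD
  have hedge : ∀ i < K, H140.Ed P (pos i) (r' i).2 := by
    intro i hi
    rw [hp i hi]
    exact hr1 i hi
  have htot : ∑ i ∈ range K, D i = best P (hidM X Y l2 c0) 0 K c0 v := by
    rw [← heq, ← sum_regroup (hidM X Y l2 c0) c0 r' pos K hzero hp K le_rfl, hlast]
    rfl
  have hup : ∀ i m, i + m ≤ K →
      best P (hidM X Y l2 c0) i m (pos i) (pos (i + m)) ≤ ∑ k ∈ range m, D (i + k) := by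
    intro i m him
    refine H140.best_le_sum F.edge i m pos D fun k hk => ?_
    refine ⟨_, _, hedge (i + k) (by omega), ?_⟩
    rw [Nat.dist_self, Nat.mul_zero, Nat.zero_add, F.sh]
  refine ⟨pos, fun i => (r' i).2, D, hzero, hlast, hcone, fun i _ => clc_cone (i + 1) _, hedge,
    fun i _ => rfl, fun i m him => le_antisymm (hup i m him) ?_⟩
  have h1 := H140.best_add (P := P) (f := hidM X Y l2 c0) F.edge 0 i (K - i) (pos 0) (pos i)
    (pos K)
  have h2 := H140.best_add (P := P) (f := hidM X Y l2 c0) F.edge i m (K - i - m) (pos i)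
    (pos (i + m)) (pos K)
  rw [show i + (K - i) = K by omega] at h1
  rw [show m + (K - i - m) = K - i by omega] at h2
  have h3 := hup 0 i (by omega)
  have h4 := hup (i + m) (K - i - m) (by omega)
  rw [show i + m + (K - i - m) = K by omega] at h4
  simp only [Nat.zero_add] at h1 h3
  rw [hzero, hlast, ← htot] at h1
  rw [hlast] at h2 h4
  have hsplit : ∑ i ∈ range K, D i = ∑ k ∈ range i, D k + (∑ k ∈ range m, D (i + k) +
      ∑ k ∈ range (K - i - m), D (i + m + k)) := by
    conv_lhs => rw [show K = i + (m + (K - i - m)) by omega]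
    rw [Finset.sum_range_add, Finset.sum_range_add]
    simp only [Nat.add_assoc]
  rw [hzero] at h3
  omega

namespace PStarM

variable {X Y : ℕ → ℕ} {K v : ℕ} {pos q D : ℕ → ℕ}

theorem adm (h : PStarM P X Y l2 c0 K v pos q D) (F : Frame P l2 c0) {i : ℕ} (hi : i < K) :
    pos i ≤ q i + l2 ∧ q i ≤ pos i + l2 := (F.adm _ _).1 (h.edge i hi).2.2.2.2

/-- A row with its shift costs at least twice the displacement. -/
theorem two_dist (h : PStarM P X Y l2 c0 K v pos q D) (F : Frame P l2 c0) {i : ℕ} (hi : i < K) :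
    2 * Nat.dist (pos i) (pos (i + 1)) ≤ D i := by
  have h1 := h.adm F hi
  have h2 := two_dist_le_hidM X Y h1.1 h1.2 (h.cone i hi.le) (h.cone' i hi)
  have h3 := h.cost i hi
  have h4 : Nat.dist (pos i) (pos (i + 1)) ≤
      Nat.dist (pos i) (q i) + Nat.dist (q i) (pos (i + 1)) := by
    unfold Nat.dist; omega
  omega

/-- Positions inside a slab differ by at most half of its cost. -/
theorem range_le (h : PStarM P X Y l2 c0 K v pos q D) (F : Frame P l2 c0) (i m : ℕ)
    (him : i + m ≤ K) :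
    2 * Nat.dist (pos i) (pos (i + m)) ≤ ∑ k ∈ range m, D (i + k) := by
  induction m with
  | zero => simp [Nat.dist_self]
  | succ m ih =>
    rw [Finset.sum_range_succ]
    have h1 := ih (by omega)
    have h2 := h.two_dist F (i := i + m) (by omega)
    have h3 : Nat.dist (pos i) (pos (i + m + 1)) ≤
      Nat.dist (pos i) (pos (i + m)) + Nat.dist (pos (i + m)) (pos (i + m + 1)) := by
      unfold Nat.dist; omega
    rw [← Nat.add_assoc i m 1]
    omega

/-- Total cost. -/
theorem sum_eq (h : PStarM P X Y l2 c0 K v pos q D) :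
    ∑ i ∈ range K, D i = best P (hidM X Y l2 c0) 0 K c0 v := by
  have h1 := h.opt 0 K (by omega)
  simp only [Nat.zero_add, h.zero, h.last] at h1
  exact h1.symm

/-- One row, any row costs `f`. -/
theorem best_one_le (h : PStarM P X Y l2 c0 K v pos q D) (F : Frame P l2 c0) (f : Leaf) {i : ℕ}
    (hi : i < K) : best P f i 1 (pos i) (pos (i + 1)) ≤
      f i (pos i) (q i) + 2 * Nat.dist (q i) (pos (i + 1)) := by
  have key := H140.best_le_sum (P := P) (f := f) F.edge i 1 pos
    (fun k => f k (pos k) (q k) + 2 * Nat.dist (q k) (pos (k + 1))) (fun k hk => ?_)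
  · simpa using key
  · obtain rfl : k = 0 := by omega
    refine ⟨_, _, h.edge i hi, ?_⟩
    simp only [Nat.add_zero, Nat.dist_self, Nat.mul_zero, Nat.zero_add, F.sh]
    exact le_rfl

/-- `cell` : if a cell that covers the start of row `i` has been read. -/
theorem cell (h : PStarM P X Y l2 c0 K v pos q D) (F : Frame P l2 c0) (vis : Leaf)
    (R : Finset (ℕ × ℕ)) {i a : ℕ} (hi : i < K) (ha : (i, a) ∈ R) (hcov : P.cov a (pos i)) :
    best P (known P vis (hidM X Y l2 c0) R) i 1 (pos i) (pos (i + 1)) ≤ D i := by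
  refine (h.best_one_le F _ hi).trans ?_
  rw [h.cost i hi]
  refine Nat.add_le_add_right (le_of_eq ?_) _
  unfold known
  rw [if_pos ⟨a, ha, hcov⟩]

/-- `vis` : in general. `w` bounds the gap of the visible cost. -/
theorem best_vis (h : PStarM P X Y l2 c0 K v pos q D) (F : Frame P l2 c0) (vis : Leaf) {i w : ℕ}
    (hi : i < K) (hw : vis i (pos i) (q i) ≤ hidM X Y l2 c0 i (pos i) (q i) + w) :
    best P vis i 1 (pos i) (pos (i + 1)) ≤ D i + w := by
  have h1 := h.best_one_le F vis hi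
  have h2 := h.cost i hi
  omega

/-- The same for any read set. -/
theorem best_known (h : PStarM P X Y l2 c0 K v pos q D) (F : Frame P l2 c0) {vis : Leaf}
    (hvis : VisOK P vis (hidM X Y l2 c0)) (R : Finset (ℕ × ℕ)) {i w : ℕ}
    (hi : i < K) (hw : vis i (pos i) (q i) ≤ hidM X Y l2 c0 i (pos i) (q i) + w) :
    best P (known P vis (hidM X Y l2 c0) R) i 1 (pos i) (pos (i + 1)) ≤ D i + w := by
  have h1 := h.best_one_le F (known P vis (hidM X Y l2 c0) R) hi
  have h2 := h.cost i hi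
  have h3 := known_le_vis (P := P) (hid := hidM X Y l2 c0) (vis := vis) R
    (hvis i _ _ (h.edge i hi))
  omega

/-- `lower` : every certified cost of a slab between positions of the route is at least the cost of
the route there (exact). -/
theorem lower (h : PStarM P X Y l2 c0 K v pos q D) (F : Frame P l2 c0) {vis : Leaf}
    (hvis : VisOK P vis (hidM X Y l2 c0)) (R : Finset (ℕ × ℕ)) (j i : ℕ)
    (hK : (i + 1) * P.M ^ j ≤ K) :
    ∑ k ∈ range (P.M ^ j), D (i * P.M ^ j + k) ≤
      cval P vis (hidM X Y l2 c0) R j i (pos (i * P.M ^ j)) (pos ((i + 1) * P.M ^ j)) := by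
  have e : (i + 1) * P.M ^ j = i * P.M ^ j + P.M ^ j := by ring
  rw [e] at hK ⊢
  rw [← h.opt (i * P.M ^ j) (P.M ^ j) hK]
  unfold cval
  exact H140.best_mono F.edge _ _ _ _ fun k _ p p' hp => le_known R (hvis _ _ _ hp)

/-- Bound of the positions. -/
theorem pos_le (h : PStarM P X Y l2 c0 K v pos q D) {i : ℕ} (hi : i ≤ K) :
    pos i ≤ c0 + K * l2 := by
  have h1 := (h.cone i hi).2
  have h2 : i * l2 ≤ K * l2 := Nat.mul_le_mul_right l2 hi
  omega

end PStarM

/-- **The route for two strings.** -/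
theorem exists_pstarM_strings (F : Frame P l2 c0) (x y : List ℕ) (K : ℕ)
    (h : x.length + y.length ≤ K * (2 * l2)) (hc : K * l2 ≤ c0) (hB : c0 + K * l2 ≤ P.B) :
    ∃ pos q D, PStarM P (fun i => x.getD i 0) (fun i => y.getD i 0) l2 c0 K
      (pend x y l2 c0 K) pos q D ∧ ∑ i ∈ range K, D i ≤ ED x y + 1 + K * (8 * P.μ + 2) ∧
      ED x y ≤ ∑ i ∈ range K, D i + 1 := by
  obtain ⟨pos, q, D, hP⟩ := exists_pstarM F (fun i => x.getD i 0) (fun i => y.getD i 0) K
    (pend x y l2 c0 K) (pend_cone h hc)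
  refine ⟨pos, q, D, hP, ?_, ?_⟩
  · rw [hP.sum_eq]
    exact best_le_EDM F x y K h hc hB
  · rw [hP.sum_eq]
    have h1 := best_certM F (fun i => x.getD i 0) (fun i => y.getD i 0)
      (hidM (fun i => x.getD i 0) (fun i => y.getD i 0) l2 c0) 0 K c0 (pend x y l2 c0 K)
      fun _ _ _ _ => le_rfl
    rw [preM_start, Nat.zero_add, Nat.zero_add] at h1
    have h2 := (En_final x y _ h).1
    rw [ED_eq_lev]
    unfold preM at h1
    rw [xi_pend h hc] at h1
    simp only [En, Ed, Nat.sub_zero] at h2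
    exact h2.trans (Nat.add_le_add_right h1 1)

end Vale.Agent.P315.H54
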