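import Vale.Agent.P315.H54.CountMul
import Vale.Agent.P315.H54.MkCst
import Vale.Agent.P315.H873.MulRun
import Vale.Agent.P315.H608.Cost3
import Vale.Agent.P315.Top.Stmt

/-!
P315, milestone 2: the multiplicative theorem from the query theorem.
-/

set_option autoImplicit false

namespace Vale.Agent.P315.H54

open Vale.Agent.P315
open Vale.Agent.P315.H846 (StmtQT2)
open Vale.Agent.P315.H155 (fam2 m2Strat)
open Vale.Agent.P315.H608 (Cst2)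
open Vale.Agent.P315.H873 Vale.Agent.P315.H933 Vale.Agent.P315.H486
open Vale.Agent.P315.RAM (len2)

/-- **The multiplicative theorem**, from the query theorem for the family `fam2`. -/
theorem stmtMul_of_QT2 (hQT : StmtQT2 fam2) : Top.StmtMul := by
  intro ε hε
  obtain ⟨m, k, cd, D1, e₀, E₁, h, C0, Ak, hm, hE₁, hh, hC0, hAk, hcount⟩ := count_mulF hQT hε
  have h2 : 2 ≤ max (max Ak (3 * h)) 2 := le_max_right _ _
  obtain ⟨c, hc, hc3, hc2⟩ : ∃ c : Cst2, CstFit c m k e₀ E₁ h C0 Ak ∧ 3 * c.h ≤ c.ak ∧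
      2 ≤ c.ak :=
    ⟨mulCst m k h C0 (max (max Ak (3 * h)) 2) e₀ E₁ 1 hm hh hC0 ((by norm_num : 1 ≤ 2).trans h2)
      hE₁, mulCst_fit hm hh hC0 _ hE₁ le_rfl ((le_max_left _ _).trans (le_max_left _ _)) le_rfl
      le_rfl, (le_max_right Ak (3 * h)).trans (le_max_left _ _), h2⟩
  obtain ⟨k₂, hsol⟩ := main_solves2 (m2Strat m k cd D1)
  obtain ⟨aS, haS⟩ := H514.m2Sz_leX c
  obtain ⟨q₀, hq₀, hcost⟩ := Cst2.cost_final c hc3 k₂ aS
  obtain ⟨N₁, hN₁⟩ := hcount c hc (max q₀ 3) (le_max_right _ _)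
  obtain ⟨cb, hcb⟩ := mul_run c hm hc.hbm hc2 k cd D1 (hq₀.trans (le_max_left q₀ 3)) N₁
  obtain ⟨n1, c1, hR⟩ := hcb cb le_rfl
  obtain ⟨CS, hCS⟩ := haS cb
  obtain ⟨k₁, hk₁⟩ := hsol (mulF c (max q₀ 3) cb N₁) (max n1 1) c1 130 (SMul c (max q₀ 3) cb)
    (VMul c (max q₀ 3)) (fun x y => H933.tpre (GF c (max q₀ 3)) (len2 x y))
    (fun x y => visG (GF c (max q₀ 3)) x y) (le_max_right _ _)
    (fun x y _ => (hR c1 le_rfl x y).1) (fun x y _ => mulF_e_eq _ _ _ _ _)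
    (fun x y hn cc hcc => (hR c1 le_rfl x y).2 ((le_max_left _ _).trans hn) cc hcc)
  obtain ⟨δ, C, hδ, -, -, ht, ht0⟩ := hcost (max q₀ 3) (le_max_left _ _) cb k₁ CS N₁ (max n1 1)
  obtain ⟨P, k', hP⟩ := hk₁ (fun x y D => ED x y ≤ D ∧ (D : ℝ) ≤ (1 + ε) * ED x y)
    (fun n => C * ((n : ℝ) + 1) ^ (2 - δ)) (fun x y _ => ht x y _ (hCS _ _)) ht0
    (fun x y => ⟨le_rfl, by
      have : (0 : ℝ) ≤ ED x y := Nat.cast_nonneg _
      nlinarith⟩)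
    (fun x y _ => hN₁ N₁ le_rfl cb x y)
  exact ⟨δ, hδ, C, k', P, hP⟩

end Vale.Agent.P315.H54
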